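import Vale.Agent.P327.Code
import Mathlib.Topology.Metrizable.CompletelyMetrizable

/-!
Averaging over generic enumerations of a countable family of term functions.
-/

namespace Vale.Agent.P327

open Filter Set Topology

/-- What is kept of an automorphism on a countable family. -/
structure Nice (ρ : C → C → Prop) : Prop where
  le_iff : ∀ {x x' y y'}, ρ x x' → ρ y y' → (LeT x y ↔ LeT x' y')
  jn : ∀ {x x' y y'}, ρ x x' → ρ y y' → ρ (jn x y) (jn x' y')
  meet : ∀ {u u' v v' w w'}, ρ u u' → ρ v v' → ρ w w' → Meet u v w → Meet u' v' w'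

section
variable {T : Type} (ev : T → Om → C) (d : J → C → C)

/-- `η` extends the finite list `p`. -/
def PreT (p : List T) (η : ℕ → T) : Prop := ∀ i t, p[i]? = some t → η i = t

/-- Borel conditions satisfied by the graph of an automorphism on the values of the terms. -/
def Good (y₀ y₁ : C) (S : T → J → Prop) (g : Om) : Prop :=
  (∀ t, ∃ j, S t j) ∧
  (∀ t j t' j', S t j → S t' j' →
    (LeT (ev t g) (ev t' g) ↔ LeT (d j (ev t g)) (d j' (ev t' g)))) ∧
  (∀ t j t₁ j₁ t₂ j₂, S t j → S t₁ j₁ → S t₂ j₂ → LeT (ev t g) (jn (ev t₁ g) (ev t₂ g)) →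
    LeT (d j (ev t g)) (jn (d j₁ (ev t₁ g)) (d j₂ (ev t₂ g)))) ∧
  (∀ t j t₁ j₁ t₂ j₂, S t j → S t₁ j₁ → S t₂ j₂ → Meet (ev t₁ g) (ev t₂ g) (ev t g) →
    Meet (d j₁ (ev t₁ g)) (d j₂ (ev t₂ g)) (d j (ev t g))) ∧
  (∀ t j, S t j → EqT (ev t g) y₀ → EqT (d j (ev t g)) y₁)

/-- The relation generated by a graph. -/
def Rel (S : T → J → Prop) (g : Om) (x y : C) : Prop :=
  ∃ t j, S t j ∧ EqT (ev t g) x ∧ EqT (d j (ev t g)) y

variable {ev d}

theorem Good.nice {y₀ y₁ : C} {S : T → J → Prop} {g : Om} (h : Good ev d y₀ y₁ S g)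
    (hjn : ∀ t t', ∃ u, ev u g = jn (ev t g) (ev t' g)) : Nice (Rel ev d S g) := by
  obtain ⟨h1, h2, h3, h4, -⟩ := h
  refine ⟨?_, ?_, ?_⟩
  · rintro x x' y y' ⟨t, j, hs, a, b⟩ ⟨t', j', hs', a', b'⟩
    exact ⟨fun h => b.2.trans (((h2 _ _ _ _ hs hs').1 (a.1.trans (h.trans a'.2))).trans b'.1),
      fun h => a.2.trans (((h2 _ _ _ _ hs hs').2 (b.1.trans (h.trans b'.2))).trans a'.1)⟩
  · rintro x x' y y' ⟨t, j, hs, a, b⟩ ⟨t', j', hs', a', b'⟩
    obtain ⟨u, hu⟩ := hjn t t'
    obtain ⟨k, hk⟩ := h1 u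
    refine ⟨u, k, hk, hu ▸ a.jn a', ⟨?_, ?_⟩⟩
    · exact (h3 _ _ _ _ _ _ hk hs hs' (hu ▸ LeT.refl _)).trans (b.jn b').1
    · refine (b.jn b').2.trans (LeT.jn ?_ ?_)
      · exact (h2 _ _ _ _ hs hk).1 (hu ▸ le_jn_left _ _)
      · exact (h2 _ _ _ _ hs' hk).1 (hu ▸ le_jn_right _ _)
  · rintro u u' v v' w w' ⟨t₁, j₁, s₁, a₁, b₁⟩ ⟨t₂, j₂, s₂, a₂, b₂⟩ ⟨t, j, s, a, b⟩ m
    exact (h4 _ _ _ _ _ _ s s₁ s₂ (m.congr a₁.symm a₂.symm a.symm)).congr b₁ b₂ b

theorem Good.par {y₀ y₁ : C} {S : T → J → Prop} {g : Om} (h : Good ev d y₀ y₁ S g)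
    {t : T} (ht : ev t g = y₀) : Rel ev d S g y₀ y₁ := by
  obtain ⟨j, hj⟩ := h.1 t
  exact ⟨t, j, hj, ht ▸ EqT.refl _, h.2.2.2.2 t j hj (ht ▸ EqT.refl _)⟩

theorem Auto.good {ρ : C → C → Prop} (h : Auto ρ) (hd : ∀ q, ∃ j, ρ q (d j q)) {y₀ y₁ : C}
    (hy : ρ y₀ y₁) {S : T → J → Prop} {g : Om}
    (hS : ∀ t j, S t j ↔ ρ (ev t g) (d j (ev t g))) : Good ev d y₀ y₁ S g := by
  simp only [Good, hS]
  exact ⟨fun t => hd _, fun _ _ _ _ a b => h.le_iff a b,
    fun _ _ _ _ _ _ a b c => (h.le_iff a (h.jn b c)).1,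
    fun _ _ _ _ _ _ a b c => h.meet b c a, fun _ _ a => h.eqT a hy⟩

theorem measurable_good [Countable T] (hev : ∀ t, Measurable (ev t)) (hd : ∀ j, Measurable (d j))
    (y₀ y₁ : C) {S : Om → T → J → Prop} (hS : ∀ t j, Measurable fun g => S g t j) :
    Measurable fun g => Good ev d y₀ y₁ (S g) g := by
  have hde : ∀ j t, Measurable fun g => d j (ev t g) := fun j t => (hd j).comp (hev t)
  refine (Measurable.forall fun t => Measurable.exists fun j => hS t j).and
    (Measurable.and ?_ (Measurable.and ?_ (Measurable.and ?_ ?_)))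
  · exact .forall fun t => .forall fun j => .forall fun t' => .forall fun j' =>
      (hS _ _).imp ((hS _ _).imp ((measurable_LeT (hev _) (hev _)).iff
        (measurable_LeT (hde _ _) (hde _ _))))
  · exact .forall fun t => .forall fun j => .forall fun t₁ => .forall fun j₁ =>
      .forall fun t₂ => .forall fun j₂ => (hS _ _).imp ((hS _ _).imp ((hS _ _).imp
        ((measurable_LeT (hev _) (measurable_jn (hev _) (hev _))).imp
          (measurable_LeT (hde _ _) (measurable_jn (hde _ _) (hde _ _))))))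
  · exact .forall fun t => .forall fun j => .forall fun t₁ => .forall fun j₁ =>
      .forall fun t₂ => .forall fun j₂ => (hS _ _).imp ((hS _ _).imp ((hS _ _).imp
        ((measurable_Meet (hev _) (hev _) (hev _)).imp
          (measurable_Meet (hde _ _) (hde _ _) (hde _ _)))))
  · exact .forall fun t => .forall fun j => (hS _ _).imp
      ((measurable_EqT (hev _) measurable_const).imp (measurable_EqT (hde _ _) measurable_const))

variable [TopologicalSpace T]

variable (ev d) in
/-- The graph obtained by averaging the candidate `c` over generic enumerations extending `p`. -/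
def SS (c : ℕ → Om × C × C → Prop) (p : List T) (τ : List Bool) (g : Om) (t : T) (j : J) : Prop :=
  ∀ᶠ z : (ℕ → T) × C in residual _, PreT p z.1 → Pre τ z.2 → ∀ n, z.1 n = t →
    c n (fun k => ev (z.1 k) g, z.2, d j (ev t g))

variable [DiscreteTopology T]

theorem SS.equiv {c : ℕ → Om × C × C → Prop} {p : List T} {τ : List Bool} (e : T ≃ T)
    {θ : Om → Om} (hθ : ∀ t g, ev t (θ g) = ev (e t) g) (hp : ∀ t ∈ p, e t = t) {g : Om} {t : T}
    {j : J} (h : SS ev d c p τ (θ g) t j) : SS ev d c p τ g (e t) j := by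
  have hc : ∀ f : T → T, Continuous fun z : (ℕ → T) × C => ((fun k => f (z.1 k)), z.2) :=
    fun f => (continuous_pi fun k => continuous_of_discreteTopology.comp
      ((continuous_apply k).comp continuous_fst)).prodMk continuous_snd
  let Φ : (ℕ → T) × C ≃ₜ (ℕ → T) × C :=
    ⟨⟨fun z => (fun k => e.symm (z.1 k), z.2), fun z => (fun k => e (z.1 k), z.2),
      fun z => by simp, fun z => by simp⟩, hc _, hc _⟩
  filter_upwards [(tendsto_residual_of_isOpenMap Φ.continuous Φ.isOpenMap).eventually h]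
    with z hz h1 h2 n hn
  have := hz (fun i u hu => ?_) h2 n ?_
  · simpa [Φ, hθ] using this
  · have h3 := h1 i u hu
    have h4 := hp u (List.mem_of_getElem? hu)
    change e.symm (z.1 i) = u
    rw [h3, e.symm_apply_eq, h4]
  · change e.symm (z.1 n) = t
    rw [hn, e.symm_apply_apply]

theorem isOpen_PreT (p : List T) : IsOpen {η : ℕ → T | PreT p η} := by
  have e : {η : ℕ → T | PreT p η} = ⋂ i ∈ Finset.range p.length, {η | p[i]? = some (η i)} := by
    ext x
    simp only [mem_ofPred_eq, Finset.mem_range, mem_iInter]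
    refine ⟨fun h i hi => ?_, fun h i b hb => ?_⟩
    · rw [List.getElem?_eq_getElem hi, h i _ (List.getElem?_eq_getElem hi)]
    · have hi : i < p.length := (List.getElem?_eq_some_iff.1 hb).1
      rw [h i hi] at hb
      simpa using hb
  rw [e]
  refine isOpen_biInter_finset fun i _ => ?_
  exact (isOpen_discrete {b : T | p[i]? = some b}).preimage
    (continuous_apply (A := fun _ : ℕ => T) i)

variable [Countable T] [MeasurableSpace T] [BorelSpace T]

theorem measurable_ev_apply (hev : ∀ t, Measurable (ev t)) {α : Type*} [MeasurableSpace α]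
    {u : α → T} {v : α → Om} (hu : Measurable u) (hv : Measurable v) :
    Measurable fun a => ev (u a) (v a) :=
  (measurable_from_prod_countable_left (f := fun q : Om × T => ev q.2 q.1) hev).comp (hv.prodMk hu)

theorem measurable_SS (hev : ∀ t, Measurable (ev t)) (hd : ∀ j, Measurable (d j))
    {c : ℕ → Om × C × C → Prop} (hc : ∀ n, Measurable (c n)) (p : List T) (τ : List Bool) (t : T)
    (j : J) : Measurable fun g => SS ev d c p τ g t j := by
  rw [← measurableSet_setOfPred]
  refine measurableSet_cat (s := {q : Om × ((ℕ → T) × C) | PreT p q.2.1 → Pre τ q.2.2 →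
    ∀ n, q.2.1 n = t → c n (fun k => ev (q.2.1 k) q.1, q.2.2, d j (ev t q.1))}) ?_
  rw [measurableSet_setOfPred]
  refine Measurable.imp ?_ (Measurable.imp (by fun_prop) (Measurable.forall fun n =>
    Measurable.imp ?_ ((hc n).comp ?_)))
  · exact (measurableSet_setOfPred.1 (isOpen_PreT p).measurableSet).comp (by fun_prop)
  · exact (measurable_of_countable (f := fun u : T => u = t)).comp (by fun_prop)
  · refine Measurable.prodMk (measurable_pi_lambda _ fun k => ?_)
      (Measurable.prodMk (by fun_prop) ((hd j).comp ((hev t).comp measurable_fst)))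
    exact measurable_ev_apply hev (by fun_prop) measurable_fst

theorem exists_SS [Nonempty T] (hev : ∀ t, Measurable (ev t)) (hd : ∀ j, Measurable (d j))
    {E : Type} [Countable E] {ρ : C → C → Prop} {cand : E → ℕ → Om × C × C → Prop}
    (hc : ∀ e n, Measurable (cand e n))
    (hcand : ∀ s : Om, ∀ᶠ b in residual C, ∃ e, ∀ n y, cand e n (s, b, y) ↔ ρ (s n) y) (g : Om) :
    ∃ e p τ, ∀ t j, SS ev d (cand e) p τ g t j ↔ ρ (ev t g) (d j (ev t g)) := by
  let B : E → (ℕ → T) × C → Prop := fun e z => ∀ n j,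
    cand e n (fun k => ev (z.1 k) g, z.2, d j (ev (z.1 n) g)) ↔
      ρ (ev (z.1 n) g) (d j (ev (z.1 n) g))
  have hB : ∀ e, Measurable (B e) := fun e =>
    Measurable.forall fun n => Measurable.forall fun j => Measurable.iff
      ((hc e n).comp (Measurable.prodMk (measurable_pi_lambda _ fun k =>
        measurable_ev_apply hev (by fun_prop) measurable_const)
        (measurable_snd.prodMk ((hd j).comp
          (measurable_ev_apply hev (by fun_prop) measurable_const)))))
      ((measurable_of_countable (f := fun u : T => ρ (ev u g) (d j (ev u g)))).comp (by fun_prop))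
  have h1 : ∀ᶠ z in residual ((ℕ → T) × C), ∃ e, B e z := by
    refine ku_bwd (bm (Measurable.exists hB)) (Eventually.of_forall fun η => ?_)
    filter_upwards [hcand fun k => ev (η k) g] with b ⟨e, he⟩
    exact ⟨e, fun n j => he n _⟩
  obtain ⟨e, V, hVo, ⟨⟨η₀, b₀⟩, hz⟩, hV⟩ := loc_cover' (fun e => bm (hB e)) h1
  obtain ⟨V₁, hV₁, V₂, hV₂, hsub⟩ := mem_nhds_prod_iff.1 (hVo.mem_nhds hz)
  obtain ⟨m, hm₁, hm₂⟩ := ((exists_cyl hV₁).and (exists_cyl hV₂)).exists
  have hmem : ∀ z : (ℕ → T) × C, PreT ((List.range m).map η₀) z.1 → Pre (pre b₀ m) z.2 →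
      z ∈ V := by
    intro z h1 h2
    refine hsub ⟨hm₁ _ fun n hn => h1 n _ (by simp [hn]), hm₂ _ fun n hn => h2 n _ ?_⟩
    rw [getElem?_pre, if_pos hn]
  refine ⟨e, (List.range m).map η₀, pre b₀ m, fun t j => ⟨fun h => ?_, fun h => ?_⟩⟩
  · have ho : IsOpen {z : (ℕ → T) × C | PreT ((List.range m).map η₀) z.1 ∧ Pre (pre b₀ m) z.2 ∧
        z.1 m = t} :=
      ((isOpen_PreT _).preimage continuous_fst).inter
        (((isOpen_Pre _).preimage continuous_snd).inter
          ((isOpen_discrete {u : T | u = t}).preimage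
            ((continuous_apply (A := fun _ : ℕ => T) m).comp continuous_fst)))
    obtain ⟨z, ⟨z1, z2, z3⟩, h2, h3⟩ := exists_of_residual (hV.and h) ho
      ⟨(Function.update η₀ m t, b₀), fun i u hu => by
        have hi : i < m := by simpa using (List.getElem?_eq_some_iff.1 hu).1
        rw [List.getElem?_map, List.getElem?_range hi] at hu
        simp only [Option.map_some, Option.some.injEq] at hu
        simp [hi.ne, hu], pre_Pre _ _, by simp⟩
    have := (h2 (hmem z z1 z2) m j).1 (by rw [z3]; exact h3 z1 z2 m z3)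
    rwa [z3] at this
  · filter_upwards [hV] with z hz h1 h2 n hn
    have := (hz (hmem z h1 h2) n j).2 (by rw [hn]; exact h)
    rwa [hn] at this

theorem Auto.avg [Nonempty T] (hev : ∀ t, Measurable (ev t)) {ρ : C → C → Prop} (h : Auto ρ)
    {y₀ y₁ : C} (hy : ρ y₀ y₁) :
    ∃ (d : J → C → C) (p : List T) (S : Om → T → J → Prop) (U : Set Om),
      (∀ j, Measurable (d j)) ∧ IsOpen U ∧ U.Nonempty ∧ (∀ t j, Measurable fun g => S g t j) ∧
      (∀ᶠ g in residual Om, g ∈ U → Good ev d y₀ y₁ (S g) g) ∧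
      ∀ (e : T ≃ T) (θ : Om → Om), (∀ t g, ev t (θ g) = ev (e t) g) → (∀ t ∈ p, e t = t) →
        ∀ g t j, S (θ g) t j → S g (e t) j := by
  obtain ⟨d, hd, hdq⟩ := h.exists_d
  obtain ⟨cand, hc, hcand⟩ := h.exists_cand
  obtain ⟨⟨e, p, τ⟩, U, ho, hn, hU⟩ := loc_cover'
    (p := fun (i : (J × J × J × J) × List T × List Bool) g =>
      Good ev d y₀ y₁ (SS ev d (cand i.1) i.2.1 i.2.2 g) g)
    (fun i => bm (measurable_good hev hd y₀ y₁ (measurable_SS hev hd (hc _) _ _)))
    (Eventually.of_forall fun g => by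
      obtain ⟨e, p, τ, hS⟩ := exists_SS hev hd hc hcand g
      exact ⟨(e, p, τ), h.good hdq hy hS⟩)
  exact ⟨d, p, SS ev d (cand e) p τ, U, hd, ho, hn, measurable_SS hev hd (hc _) _ _, hU,
    fun e θ hθ hp g t j hs => SS.equiv e hθ hp hs⟩

end

end Vale.Agent.P327
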