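import Mathlib.Topology.Baire.BaireMeasurable
import Mathlib.Topology.Baire.Lemmas
import Mathlib.Topology.Baire.CompleteMetrizable
import Mathlib.MeasureTheory.Constructions.BorelSpace.Basic
import Mathlib.MeasureTheory.MeasurableSpace.Prod
import Mathlib.Tactic

/-!
Baire category tools: Kuratowski-Ulam, localization, the category quantifier on Borel sets.
-/

namespace Vale.Agent.P327

open Filter Set Topology TopologicalSpace

variable {X Y : Type*} [TopologicalSpace X] [TopologicalSpace Y]

theorem ku_open [SecondCountableTopology Y] {U : Set (X × Y)} (ho : IsOpen U) (hd : Dense U) :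
    ∀ᶠ x in residual X, ∀ᶠ y in residual Y, (x, y) ∈ U := by
  have hb := isBasis_countableBasis Y
  have h1 : ∀ᶠ x in residual X, ∀ V ∈ countableBasis Y, ∃ y ∈ V, (x, y) ∈ U := by
    rw [eventually_countable_ball (countable_countableBasis Y)]
    intro V hV
    have hVo : IsOpen V := isOpen_of_mem_countableBasis hV
    have hVn : V.Nonempty := nonempty_of_mem_countableBasis hV
    have e : {x | ∃ y ∈ V, (x, y) ∈ U} = Prod.fst '' (U ∩ univ ×ˢ V) := by
      ext x; simp [and_comm]
    refine residual_of_dense_open (s := {x | ∃ y ∈ V, (x, y) ∈ U}) ?_ ?_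
    · rw [e]; exact isOpenMap_fst _ (ho.inter (isOpen_univ.prod hVo))
    · rw [dense_iff_inter_open]
      intro W hW hWn
      obtain ⟨⟨x, y⟩, ⟨hx, hy⟩, hU⟩ := hd.inter_open_nonempty _ (hW.prod hVo) (hWn.prod hVn)
      exact ⟨x, hx, y, hy, hU⟩
  filter_upwards [h1] with x hx
  refine residual_of_dense_open (s := {y | (x, y) ∈ U}) (ho.preimage (by fun_prop)) ?_
  rw [hb.dense_iff]
  intro V hV _
  obtain ⟨y, hy, hU⟩ := hx V hV
  exact ⟨y, hy, hU⟩

/-- Kuratowski-Ulam, forward direction. -/
theorem ku_fwd [SecondCountableTopology Y] {p : X × Y → Prop}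
    (h : ∀ᶠ z in residual (X × Y), p z) :
    ∀ᶠ x in residual X, ∀ᶠ y in residual Y, p (x, y) := by
  obtain ⟨S, ho, hd, hc, hs⟩ := mem_residual_iff.1 h
  have h1 : ∀ᶠ x in residual X, ∀ U ∈ S, ∀ᶠ y in residual Y, (x, y) ∈ U := by
    rw [eventually_countable_ball hc]
    exact fun U hU => ku_open (ho U hU) (hd U hU)
  filter_upwards [h1] with x hx
  have h2 : ∀ᶠ y in residual Y, ∀ U ∈ S, (x, y) ∈ U := by
    rw [eventually_countable_ball hc]; exact hx
  filter_upwards [h2] with y hy
  exact hs (mem_sInter.2 hy)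

/-- A nonmeagre set with the Baire property is comeagre in a nonempty open set. -/
theorem loc {p : X → Prop} (hp : BaireMeasurableSet {x | p x})
    (h : ¬ ∀ᶠ x in residual X, ¬ p x) :
    ∃ U : Set X, IsOpen U ∧ U.Nonempty ∧ ∀ᶠ x in residual X, x ∈ U → p x := by
  obtain ⟨U, ho, hU⟩ := hp.residualEq_isOpen
  rw [eventuallyEq_set] at hU
  refine ⟨U, ho, ?_, by filter_upwards [hU] with x hx using hx.2⟩
  by_contra hn
  rw [not_nonempty_iff_eq_empty] at hn
  refine h ?_
  filter_upwards [hU] with x hx hpx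
  have := hx.1 hpx
  simp [hn] at this

theorem exists_of_residual [BaireSpace X] {p : X → Prop} (h : ∀ᶠ x in residual X, p x)
    {U : Set X} (ho : IsOpen U) (hn : U.Nonempty) : ∃ x ∈ U, p x :=
  (dense_of_mem_residual h).inter_open_nonempty U ho hn

theorem exists_of_residual' [BaireSpace X] [Nonempty X] {p : X → Prop}
    (h : ∀ᶠ x in residual X, p x) : ∃ x, p x :=
  (dense_of_mem_residual h).nonempty

/-- Kuratowski-Ulam, backward direction. -/
theorem ku_bwd [BaireSpace X] [BaireSpace Y] [SecondCountableTopology Y] {p : X × Y → Prop}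
    (hp : BaireMeasurableSet {z | p z})
    (h : ∀ᶠ x in residual X, ∀ᶠ y in residual Y, p (x, y)) : ∀ᶠ z in residual (X × Y), p z := by
  by_contra hn
  obtain ⟨U, ho, ⟨⟨a, b⟩, hab⟩, hU⟩ := loc (p := fun z => ¬ p z) hp.compl (by simpa using hn)
  obtain ⟨U1, U2, ho1, ho2, ha, hb, hsub⟩ := isOpen_prod_iff.1 ho a b hab
  obtain ⟨x, hx, h1, h2⟩ := exists_of_residual (h.and (ku_fwd hU)) ho1 ⟨a, ha⟩
  obtain ⟨y, hy, h3, h4⟩ := exists_of_residual (h1.and h2) ho2 ⟨b, hb⟩
  exact h4 (hsub ⟨hx, hy⟩) h3

/-- Exchange of category quantifiers. -/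
theorem ku_swap [BaireSpace X] [BaireSpace Y] [SecondCountableTopology X]
    [SecondCountableTopology Y] {p : X → Y → Prop}
    (hp : BaireMeasurableSet {z : X × Y | p z.1 z.2})
    (h : ∀ᶠ x in residual X, ∀ᶠ y in residual Y, p x y) :
    ∀ᶠ y in residual Y, ∀ᶠ x in residual X, p x y := by
  have h1 := ku_bwd (p := fun z : X × Y => p z.1 z.2) hp h
  have h2 := (tendsto_residual_of_isOpenMap (Homeomorph.prodComm Y X).continuous
    (Homeomorph.prodComm Y X).isOpenMap).eventually h1
  exact ku_fwd h2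

/-- Countable cover of a comeagre part of an open set. -/
theorem loc_cover [BaireSpace X] {ι : Type*} [Countable ι] {p : ι → X → Prop}
    (hp : ∀ i, BaireMeasurableSet {x | p i x}) {U : Set X} (ho : IsOpen U) (hn : U.Nonempty)
    (h : ∀ᶠ x in residual X, x ∈ U → ∃ i, p i x) :
    ∃ i, ∃ V : Set X, IsOpen V ∧ V.Nonempty ∧ V ⊆ U ∧ ∀ᶠ x in residual X, x ∈ V → p i x := by
  by_contra hcon
  have h1 : ∀ i, ∀ᶠ x in residual X, ¬ (x ∈ U ∧ p i x) := by
    intro i
    by_contra h2
    obtain ⟨V, hVo, hVn, hV⟩ := loc (p := fun x => x ∈ U ∧ p i x)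
      (ho.baireMeasurableSet.inter (hp i)) h2
    obtain ⟨x, hx, hx'⟩ := exists_of_residual hV hVo hVn
    refine hcon ⟨i, V ∩ U, hVo.inter ho, ⟨x, hx, (hx' hx).1⟩, inter_subset_right, ?_⟩
    filter_upwards [hV] with y hy hy' using (hy hy'.1).2
  obtain ⟨x, hx, h2, h3⟩ := exists_of_residual (h.and (eventually_countable_forall.2 h1)) ho hn
  obtain ⟨i, hi⟩ := h2 hx
  exact h3 i ⟨hx, hi⟩

theorem loc_cover' [BaireSpace X] [Nonempty X] {ι : Type*} [Countable ι] {p : ι → X → Prop}
    (hp : ∀ i, BaireMeasurableSet {x | p i x}) (h : ∀ᶠ x in residual X, ∃ i, p i x) :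
    ∃ i, ∃ V : Set X, IsOpen V ∧ V.Nonempty ∧ ∀ᶠ x in residual X, x ∈ V → p i x := by
  obtain ⟨i, V, h1, h2, -, h3⟩ := loc_cover hp isOpen_univ univ_nonempty
    (by filter_upwards [h] with x hx _ using hx)
  exact ⟨i, V, h1, h2, h3⟩

/-- Pushing a comeagre statement forward along a continuous open map with dense range. -/
theorem push [BaireSpace X] {f : X → Y} (hc : Continuous f) (ho : IsOpenMap f)
    (hd : DenseRange f) {p : Y → Prop} (hp : BaireMeasurableSet {y | p y})
    (h : ∀ᶠ x in residual X, p (f x)) : ∀ᶠ y in residual Y, p y := by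
  by_contra hn
  obtain ⟨U, hUo, hUn, hU⟩ := loc (p := fun y => ¬ p y) hp.compl (by simpa using hn)
  have h1 := (tendsto_residual_of_isOpenMap hc ho).eventually hU
  obtain ⟨x, hx, h2, h3⟩ := exists_of_residual (h.and h1) (hUo.preimage hc)
    (by obtain ⟨x, hx⟩ := hd.exists_mem_open hUo hUn; exact ⟨x, hx⟩)
  exact h3 hx h2

/-- The category quantifier preserves measurability. -/
theorem measurableSet_cat {A : Type*} [MeasurableSpace A] [MeasurableSpace Y] [BorelSpace Y]
    [SecondCountableTopology Y] [BaireSpace Y] {s : Set (A × Y)} (hs : MeasurableSet s) :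
    MeasurableSet {a | ∀ᶠ y in residual Y, (a, y) ∈ s} := by
  have hcompl : ∀ t : Set (A × Y), MeasurableSet t →
      (∀ V : Set Y, IsOpen V → MeasurableSet {a | ∀ᶠ y in residual Y, y ∈ V → (a, y) ∈ t}) →
      ∀ V : Set Y, IsOpen V → MeasurableSet {a | ∀ᶠ y in residual Y, y ∈ V → (a, y) ∈ tᶜ} := by
    intro t ht ih V hV
    have e : {a | ∀ᶠ y in residual Y, y ∈ V → (a, y) ∈ tᶜ} =
        ⋂ W ∈ {W ∈ countableBasis Y | W ⊆ V}, {a | ∀ᶠ y in residual Y, y ∈ W → (a, y) ∈ t}ᶜ := by
      ext a
      simp only [mem_ofPred_eq, mem_iInter, mem_compl_iff]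
      constructor
      · rintro h W ⟨hW, hWV⟩ h'
        obtain ⟨y, hy, h1, h2⟩ := exists_of_residual (h.and h') (isOpen_of_mem_countableBasis hW)
          (nonempty_of_mem_countableBasis hW)
        exact h1 (hWV hy) (h2 hy)
      · intro h
        by_contra hn
        have hm : MeasurableSet {y | y ∈ V ∧ (a, y) ∈ t} :=
          hV.measurableSet.inter (measurable_prodMk_left ht)
        obtain ⟨U, hUo, hUn, hU⟩ := loc (p := fun y => y ∈ V ∧ (a, y) ∈ t) hm.baireMeasurableSet
          (by simpa using hn)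
        obtain ⟨y, hy, hy'⟩ := exists_of_residual hU hUo hUn
        obtain ⟨W, hW, -, hWs⟩ := (isBasis_countableBasis Y).exists_subset_of_mem_open
          (show y ∈ U ∩ V from ⟨hy, (hy' hy).1⟩) (hUo.inter hV)
        refine h W ⟨hW, fun z hz => (hWs hz).2⟩ ?_
        filter_upwards [hU] with z hz hzW using (hz (hWs hzW).1).2
    rw [e]
    refine MeasurableSet.biInter ((countable_countableBasis Y).mono (sep_subset _ _)) ?_
    exact fun W hW => (ih W (isOpen_of_mem_countableBasis hW.1)).compl
  suffices H : ∀ V : Set Y, IsOpen V →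
      MeasurableSet {a | ∀ᶠ y in residual Y, y ∈ V → (a, y) ∈ s} by
    simpa using H univ isOpen_univ
  have hs' : @MeasurableSet _ (MeasurableSpace.generateFrom
      (image2 (· ×ˢ ·) {s : Set A | MeasurableSet s} {t : Set Y | MeasurableSet t})) s := by
    rwa [generateFrom_prod]
  induction s, hs' using MeasurableSpace.generateFrom_induction with
  | hC t ht _ =>
    obtain ⟨a, ha, b, hb, rfl⟩ := ht
    intro V hV
    by_cases h1 : ∀ᶠ y in residual Y, y ∉ V
    · convert MeasurableSet.univ
      ext x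
      simp only [mem_ofPred_eq, mem_univ, iff_true]
      filter_upwards [h1] with y hy hy' using absurd hy' hy
    · by_cases h2 : ∀ᶠ y in residual Y, y ∈ V → y ∈ b
      · convert (show MeasurableSet a from ha)
        ext x
        simp only [mem_ofPred_eq, mem_prod]
        constructor
        · intro h
          by_contra hx
          exact h1 (by filter_upwards [h] with y hy hy' using hx (hy hy').1)
        · intro hx
          filter_upwards [h2] with y hy hy' using ⟨hx, hy hy'⟩
      · convert MeasurableSet.empty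
        ext x
        simp only [mem_ofPred_eq, mem_prod, mem_empty_iff_false, iff_false]
        exact fun h => h2 (by filter_upwards [h] with y hy hy' using (hy hy').2)
  | empty =>
    intro V hV
    by_cases h1 : ∀ᶠ y in residual Y, y ∉ V
    · convert MeasurableSet.univ
      ext x
      simpa using h1
    · convert MeasurableSet.empty
      ext x
      simpa using h1
  | compl t ht ih =>
    rw [generateFrom_prod] at ht
    exact hcompl t ht (ih ht)
  | iUnion f hf ih =>
    have hf' : ∀ n, MeasurableSet (f n) := fun n => by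
      have := hf n
      rwa [generateFrom_prod] at this
    have h1 : ∀ V : Set Y, IsOpen V →
        MeasurableSet {a | ∀ᶠ y in residual Y, y ∈ V → (a, y) ∈ ⋂ n, (f n)ᶜ} := by
      intro V hV
      have e : {a | ∀ᶠ y in residual Y, y ∈ V → (a, y) ∈ ⋂ n, (f n)ᶜ} =
          ⋂ n, {a | ∀ᶠ y in residual Y, y ∈ V → (a, y) ∈ (f n)ᶜ} := by
        ext a
        simp only [mem_ofPred_eq, mem_iInter, ← eventually_countable_forall]
        exact eventually_congr (Eventually.of_forall fun y =>
          ⟨fun h i hy => h hy i, fun h hy i => h i hy⟩)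
      rw [e]
      exact MeasurableSet.iInter fun n => hcompl _ (hf' n) (ih n (hf' n)) V hV
    have h2 := hcompl _ (MeasurableSet.iInter fun n => (hf' n).compl) h1
    simpa [compl_iInter] using h2

/-- Updating one coordinate does not change `v`. -/
def Indep {ι Z W : Type*} [DecidableEq ι] (i : ι) (v : (ι → Z) → W) : Prop :=
  ∀ g c, v (Function.update g i c) = v g

/-- Adjoining a fresh (sheared) coordinate to an open map gives an open map. -/
theorem isOpenMap_cons {ι Z W : Type*} [DecidableEq ι] [TopologicalSpace Z] [TopologicalSpace W]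
    {i : ι} {v : (ι → Z) → W} (hv : IsOpenMap v) (hi : Indep i v)
    {φ : (ι → Z) → Z → Z} (hφ : Continuous fun p : (ι → Z) × Z => φ p.1 p.2)
    (hφi : Indep i φ) (hinv : ∀ g c, φ g (φ g c) = c) :
    IsOpenMap fun g => (φ g (g i), v g) := by
  intro U hU
  rw [isOpen_iff_mem_nhds]
  rintro _ ⟨g, hg, rfl⟩
  let M : Z × (ι → Z) → ι → Z := fun p => Function.update p.2 i (φ p.2 p.1)
  have hM : Continuous M :=
    continuous_snd.update i (hφ.comp (continuous_snd.prodMk continuous_fst))
  have h0 : M (φ g (g i), g) = g := by simp [M, hinv]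
  have h1 : M ⁻¹' U ∈ 𝓝 (φ g (g i), g) :=
    hM.continuousAt.preimage_mem_nhds (by rw [h0]; exact hU.mem_nhds hg)
  obtain ⟨V1, hV1, V2, hV2, hsub⟩ := mem_nhds_prod_iff.1 h1
  refine mem_of_superset (prod_mem_nhds hV1 (hv.image_mem_nhds hV2)) ?_
  rintro ⟨c, w⟩ ⟨hc, g', hg', hw⟩
  refine ⟨M (c, g'), hsub ⟨hc, hg'⟩, ?_⟩
  simp only [M, Function.update_self]
  rw [hφi, hinv, hi]
  exact Prod.ext rfl hw

end Vale.Agent.P327
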