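import Mathlib.Computability.TuringDegree
import Mathlib.Algebra.Notation.Indicator

namespace Vale.Agent.P327

/-- The characteristic function of a set of naturals (value `1` on `A`, `0` off `A`), as an
everywhere defined partial function, so that it can be an input of Mathlib's
`TuringReducible`. -/
noncomputable def chi (A : Set ℕ) : ℕ →. ℕ := fun n => Part.some (A.indicator (fun _ => 1) n)

/-- The Turing degrees of subsets of `ℕ`: those elements of Mathlib's `TuringDegree` that contain
the characteristic function of a set, with the order inherited from Mathlib's `TuringDegree`. -/
abbrev SetDegree : Type :=
  {d : TuringDegree // ∃ A : Set ℕ, toAntisymmetrization TuringReducible (chi A) = d}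

end Vale.Agent.P327
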