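import Vale.Agent.P327.Comp
import Vale.Agent.P327.Defs

/-!
The normal form `LeT` agrees with Mathlib's oracle computability.
-/

namespace Vale.Agent.P327

open Encodable

/-- Characteristic function of a point of Cantor space. -/
def chiB (x : C) : ℕ →. ℕ := fun n => Part.some (cond (x n) 1 0)

/-- `φ` is approximated from initial segments of `x`. -/
def Appr (x : C) (φ : ℕ → Part ℕ) : Prop :=
  ∃ ψ : List Bool → ℕ → Option ℕ, Primrec₂ ψ ∧
    (∀ l n v, Pre l x → ψ l n = some v → v ∈ φ n) ∧
    ∀ n v, v ∈ φ n → ∃ k, ∀ l, Pre l x → k ≤ l.length → ψ l n = some v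

theorem appr_of_primrec (x : C) {f : ℕ → ℕ} (hf : Primrec f) : Appr x fun n => Part.some (f n) := by
  refine ⟨fun _ n => some (f n), (Primrec.option_some.comp (hf.comp Primrec.snd)).to₂, ?_, ?_⟩
  · intro l n v _ h
    simp only [Option.some.injEq] at h
    simp [h]
  · intro n v h
    refine ⟨0, fun l _ _ => ?_⟩
    simp only [Part.mem_some_iff] at h
    simp [h]

theorem appr_oracle (x : C) : Appr x (chiB x) := by
  refine ⟨fun l n => l[n]?.map fun b => cond b 1 0, ?_, ?_, ?_⟩
  · exact Primrec.option_map (Primrec.list_getElem?.comp Primrec.fst Primrec.snd)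
      ((Primrec.dom_bool fun b => cond b 1 0).comp Primrec.snd).to₂
  · intro l n v hl h
    simp only [Option.map_eq_some_iff] at h
    obtain ⟨b, hb, rfl⟩ := h
    simp [chiB, hl _ _ hb]
  · intro n v h
    refine ⟨n + 1, fun l hl hle => ?_⟩
    simp only [chiB, Part.mem_some_iff] at h
    beta_reduce
    rw [hl.get (by omega), h]
    rfl

theorem Appr.pair {x : C} {f g : ℕ → Part ℕ} (hf : Appr x f) (hg : Appr x g) :
    Appr x fun n => Nat.pair <$> f n <*> g n := by
  obtain ⟨ψ, hψ, s1, c1⟩ := hf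
  obtain ⟨θ, hθ, s2, c2⟩ := hg
  refine ⟨fun l n => (ψ l n).bind fun u => (θ l n).map fun v => Nat.pair u v, ?_, ?_, ?_⟩
  · refine Primrec.option_bind hψ ?_
    refine Primrec.option_map (Primrec.comp hθ Primrec.fst) ?_
    exact (Primrec₂.natPair.comp (Primrec.snd.comp Primrec.fst) Primrec.snd).to₂
  · intro l n w hl h
    simp only [Option.bind_eq_some_iff, Option.map_eq_some_iff] at h
    obtain ⟨u, hu, v, hv, rfl⟩ := h
    simp only [Seq.seq, Part.map_eq_map, Part.mem_bind_iff, Part.mem_map_iff]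
    exact ⟨_, ⟨u, s1 l n u hl hu, rfl⟩, v, s2 l n v hl hv, rfl⟩
  · intro n w h
    simp only [Seq.seq, Part.map_eq_map, Part.mem_bind_iff, Part.mem_map_iff] at h
    obtain ⟨_, ⟨u, hu, rfl⟩, v, hv, rfl⟩ := h
    obtain ⟨k1, h1⟩ := c1 n u hu
    obtain ⟨k2, h2⟩ := c2 n v hv
    refine ⟨max k1 k2, fun l hl hle => ?_⟩
    simp [h1 l hl (le_trans (le_max_left _ _) hle), h2 l hl (le_trans (le_max_right _ _) hle)]

theorem Appr.comp {x : C} {f g : ℕ → Part ℕ} (hf : Appr x f) (hg : Appr x g) :
    Appr x fun n => (g n).bind f := by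
  obtain ⟨ψ, hψ, s1, c1⟩ := hf
  obtain ⟨θ, hθ, s2, c2⟩ := hg
  refine ⟨fun l n => (θ l n).bind fun u => ψ l u, ?_, ?_, ?_⟩
  · refine Primrec.option_bind hθ ?_
    exact (hψ.comp (Primrec.fst.comp Primrec.fst) Primrec.snd).to₂
  · intro l n w hl h
    simp only [Option.bind_eq_some_iff] at h
    obtain ⟨u, hu, hw⟩ := h
    simp only [Part.mem_bind_iff]
    exact ⟨u, s2 l n u hl hu, s1 l u w hl hw⟩
  · intro n w h
    simp only [Part.mem_bind_iff] at h
    obtain ⟨u, hu, hw⟩ := h
    obtain ⟨k1, h1⟩ := c1 u w hw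
    obtain ⟨k2, h2⟩ := c2 n u hu
    refine ⟨max k1 k2, fun l hl hle => ?_⟩
    simp [h1 l hl (le_trans (le_max_left _ _) hle), h2 l hl (le_trans (le_max_right _ _) hle)]

theorem Appr.prec {x : C} {f g : ℕ → Part ℕ} (hf : Appr x f) (hg : Appr x g) :
    Appr x fun p => Nat.rec (motive := fun _ => Part ℕ) (f p.unpair.1)
      (fun y IH => IH.bind fun i => g (Nat.pair p.unpair.1 (Nat.pair y i))) p.unpair.2 := by
  obtain ⟨ψ, hψ, s1, c1⟩ := hf
  obtain ⟨θ, hθ, s2, c2⟩ := hg
  refine ⟨fun l p => Nat.rec (motive := fun _ => Option ℕ) (ψ l p.unpair.1)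
    (fun y IH => IH.bind fun i => θ l (Nat.pair p.unpair.1 (Nat.pair y i))) p.unpair.2, ?_, ?_, ?_⟩
  · refine Primrec.nat_rec' (α := List Bool × ℕ) (f := fun q => q.2.unpair.2)
      (g := fun q => ψ q.1 q.2.unpair.1)
      (h := fun q r => r.2.bind fun i => θ q.1 (Nat.pair q.2.unpair.1 (Nat.pair r.1 i)))
      (Primrec.snd.comp (Primrec.unpair.comp Primrec.snd))
      (hψ.comp Primrec.fst (Primrec.fst.comp (Primrec.unpair.comp Primrec.snd))) ?_
    refine Primrec.option_bind (Primrec.snd.comp Primrec.snd) ?_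
    refine (hθ.comp (Primrec.fst.comp (Primrec.fst.comp Primrec.fst))
      (Primrec₂.natPair.comp
        (Primrec.fst.comp (Primrec.unpair.comp (Primrec.snd.comp (Primrec.fst.comp Primrec.fst))))
        (Primrec₂.natPair.comp (Primrec.fst.comp (Primrec.snd.comp Primrec.fst))
          Primrec.snd))).to₂
  · intro l p w hl h
    beta_reduce at h ⊢
    generalize p.unpair = q at h ⊢
    obtain ⟨a, n⟩ := q
    simp only at h ⊢
    induction n generalizing w with
    | zero => exact s1 l a w hl h
    | succ n ih =>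
      simp only [Option.bind_eq_some_iff] at h
      obtain ⟨u, hu, hw⟩ := h
      simp only [Part.mem_bind_iff]
      exact ⟨u, ih u hu, s2 l _ w hl hw⟩
  · intro p w h
    beta_reduce at h ⊢
    generalize p.unpair = q at h ⊢
    obtain ⟨a, n⟩ := q
    simp only at h ⊢
    induction n generalizing w with
    | zero => exact c1 a w h
    | succ n ih =>
      simp only [Part.mem_bind_iff] at h
      obtain ⟨u, hu, hw⟩ := h
      obtain ⟨k1, h1⟩ := ih u hu
      obtain ⟨k2, h2⟩ := c2 _ w hw
      refine ⟨max k1 k2, fun l hl hle => ?_⟩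
      simp [h1 l hl (le_trans (le_max_left _ _) hle), h2 l hl (le_trans (le_max_right _ _) hle)]

theorem Appr.rfind {x : C} {f : ℕ → Part ℕ} (hf : Appr x f) :
    Appr x fun a => Nat.rfind fun n => (fun m => m = 0) <$> f (Nat.pair a n) := by
  obtain ⟨ψ, hψ, s1, c1⟩ := hf
  let J : List Bool → ℕ → ℕ := fun l a =>
    (List.range l.length).findIdx fun i => (ψ l (Nat.pair a i)).getD 0 == 0
  have hJ : Primrec₂ J := by
    refine Primrec.list_findIdx (Primrec.list_range.comp (Primrec.list_length.comp Primrec.fst)) ?_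
    exact (Primrec.beq.comp (Primrec.option_getD.comp
      (hψ.comp (Primrec.fst.comp Primrec.fst)
        (Primrec₂.natPair.comp (Primrec.snd.comp Primrec.fst) Primrec.snd)) (Primrec.const 0))
      (Primrec.const 0)).to₂
  refine ⟨fun l a => if ψ l (Nat.pair a (J l a)) = some 0 then some (J l a) else none, ?_, ?_, ?_⟩
  · exact Primrec.ite (Primrec.eq.comp (hψ.comp Primrec.fst
      (Primrec₂.natPair.comp Primrec.snd hJ)) (Primrec.const _))
      (Primrec.option_some.comp hJ) (Primrec.const _)
  · intro l a v hl h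
    beta_reduce at h
    split_ifs at h with h0
    simp only [Option.some.injEq] at h
    subst h
    refine Nat.mem_rfind.2 ⟨?_, ?_⟩
    · simp only [Part.map_eq_map, Part.mem_map_iff]
      exact ⟨0, s1 l _ 0 hl h0, by simp⟩
    · intro m hm
      have h2 := List.not_of_lt_findIdx hm
      simp only [List.getElem_range, beq_eq_false_iff_ne, ne_eq] at h2
      simp only [Part.map_eq_map, Part.mem_map_iff]
      cases hψm : ψ l (Nat.pair a m) with
      | none => simp [hψm] at h2
      | some u =>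
        rw [hψm] at h2
        exact ⟨u, s1 l _ u hl hψm, by simpa using h2⟩
  · intro a v h
    obtain ⟨h0, hlt⟩ := Nat.mem_rfind.1 h
    simp only [Part.map_eq_map, Part.mem_map_iff] at h0 hlt
    obtain ⟨u, hu, hu0⟩ := h0
    have hu0' : u = 0 := by simpa using hu0
    subst hu0'
    obtain ⟨k0, hk0⟩ := c1 _ 0 hu
    obtain ⟨k, hk⟩ := exists_forall_lt
      (p := fun i k => ∀ l, Pre l x → k ≤ l.length → (ψ l (Nat.pair a i)).getD 0 ≠ 0)
      (fun i k k' hkk hp l hl hle => hp l hl (le_trans hkk hle)) v (fun i hi => by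
        obtain ⟨w, hw, hw0⟩ := hlt hi
        obtain ⟨k1, hk1⟩ := c1 _ w hw
        exact ⟨k1, fun l hl hle => by rw [hk1 l hl hle]; simpa using hw0⟩)
    refine ⟨max (max k0 k) (v + 1), fun l hl hle => ?_⟩
    have e0 := hk0 l hl (by omega)
    have hJv : J l a = v := by
      refine (List.findIdx_eq (by simp; omega)).2 ⟨?_, fun j hj => ?_⟩
      · simp [e0]
      · simpa using hk j hj l hl (by omega)
    beta_reduce
    rw [hJv, if_pos e0]

theorem appr_of_recursiveIn {x : C} {φ : ℕ →. ℕ} (h : Nat.RecursiveIn {chiB x} φ) : Appr x φ := by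
  induction h with
  | zero => exact appr_of_primrec x (Primrec.const 0)
  | succ => exact appr_of_primrec x Primrec.succ
  | left => exact appr_of_primrec x (Primrec.fst.comp Primrec.unpair)
  | right => exact appr_of_primrec x (Primrec.snd.comp Primrec.unpair)
  | oracle g hg => rw [Set.mem_singleton_iff.1 hg]; exact appr_oracle x
  | pair _ _ ih1 ih2 => exact ih1.pair ih2
  | comp _ _ ih1 ih2 => exact ih1.comp ih2
  | prec _ _ ih1 ih2 => exact ih1.prec ih2
  | rfind _ ih => exact ih.rfind

theorem leT_of_recursiveIn {x y : C} (h : Nat.RecursiveIn {chiB x} (chiB y)) : LeT y x := by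
  obtain ⟨ψ, hψ, s, c⟩ := appr_of_recursiveIn h
  refine LeT.of_bits (ψ := fun l n => (ψ l n).map fun v => v == 1) ?_ ⟨?_, ?_⟩
  · exact Primrec.option_map hψ (Primrec.beq.comp Primrec.snd (Primrec.const 1)).to₂
  · intro l n b hl hb
    simp only [Option.map_eq_some_iff] at hb
    obtain ⟨v, hv, rfl⟩ := hb
    have := s l n v hl hv
    simp only [chiB, Part.mem_some_iff] at this
    subst this
    cases y n <;> rfl
  · intro n
    obtain ⟨k, hk⟩ := c n (cond (y n) 1 0) (by simp [chiB])
    exact ⟨k, fun l hl hle => by simp [hk l hl hle]⟩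

/-- Total functions recursive in an oracle set. -/
def TotIn (O : Set (ℕ →. ℕ)) (f : ℕ → ℕ) : Prop := Nat.RecursiveIn O fun n => Part.some (f n)

theorem TotIn.of_primrec {O : Set (ℕ →. ℕ)} {f : ℕ → ℕ} (hf : Primrec f) : TotIn O f :=
  (Primrec.nat_iff.1 hf).recursiveIn

theorem TotIn.comp {O : Set (ℕ →. ℕ)} {f g : ℕ → ℕ} (hf : TotIn O f) (hg : TotIn O g) :
    TotIn O fun n => f (g n) :=
  (Nat.RecursiveIn.comp hf hg).of_eq fun n => by simp

theorem TotIn.pair {O : Set (ℕ →. ℕ)} {f g : ℕ → ℕ} (hf : TotIn O f) (hg : TotIn O g) :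
    TotIn O fun n => Nat.pair (f n) (g n) :=
  (Nat.RecursiveIn.pair hf hg).of_eq fun n => by simp [Seq.seq]

theorem TotIn.prec {O : Set (ℕ →. ℕ)} {a : ℕ} {g : ℕ → ℕ} (hg : TotIn O g) :
    TotIn O fun n => Nat.rec a (fun y i => g (Nat.pair y i)) n := by
  have h1 : TotIn O fun p => g p.unpair.2 :=
    hg.comp (TotIn.of_primrec (Primrec.snd.comp Primrec.unpair))
  have h2 := Nat.RecursiveIn.prec (TotIn.of_primrec (O := O) (Primrec.const a)) h1
  have h3 := Nat.RecursiveIn.comp h2 (TotIn.of_primrec (O := O)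
    (Primrec₂.natPair.comp (Primrec.const 0) Primrec.id))
  refine h3.of_eq fun n => ?_
  simp only [id, Part.bind_eq_bind, Part.bind_some, Nat.unpair_pair]
  induction n with
  | zero => rfl
  | succ n ih => simp [ih]

theorem TotIn.find {O : Set (ℕ →. ℕ)} {g r : ℕ → ℕ} (hg : TotIn O g)
    (h0 : ∀ a, g (Nat.pair a (r a)) = 0) (h1 : ∀ a, ∀ m < r a, g (Nat.pair a m) ≠ 0) :
    TotIn O r := by
  refine (Nat.RecursiveIn.rfind hg).of_eq fun a => ?_
  refine Part.eq_some_iff.2 (Nat.mem_rfind.2 ⟨by simp [h0], fun hm => ?_⟩)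
  simpa using h1 a _ hm

theorem totIn_pre (x : C) : TotIn {chiB x} fun k => encode (pre x k) := by
  have ho : TotIn {chiB x} fun n => cond (x n) 1 0 := Nat.RecursiveIn.oracle _ rfl
  have hp : Primrec fun q : ℕ =>
      encode (((decode (α := List Bool) q.unpair.1).getD []) ++ [q.unpair.2 == 1]) :=
    Primrec.encode.comp (Primrec.list_concat.comp
      (Primrec.option_getD.comp (Primrec.decode.comp (Primrec.fst.comp Primrec.unpair))
        (Primrec.const []))
      (Primrec.beq.comp (Primrec.snd.comp Primrec.unpair) (Primrec.const 1)))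
  have hg := (TotIn.of_primrec hp).comp
    ((TotIn.of_primrec (O := {chiB x}) (Primrec.snd.comp Primrec.unpair)).pair
      (ho.comp (TotIn.of_primrec (Primrec.fst.comp Primrec.unpair))))
  have := hg.prec (a := encode ([] : List Bool))
  convert this using 2 with k
  induction k with
  | zero => rfl
  | succ k ih =>
    simp only [Nat.unpair_pair] at ih ⊢
    rw [← ih]
    simp only [encodek, Option.getD_some]
    congr 1
    simp only [pre, List.range_succ, List.map_append, List.map_cons, List.map_nil]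
    cases x k <;> rfl

theorem recursiveIn_of_leT {x y : C} (h : LeT y x) : Nat.RecursiveIn {chiB x} (chiB y) := by
  obtain ⟨f, hf, h⟩ := h
  have hex : ∀ n, ∃ k, n < (f (pre x k)).length := fun n => by
    obtain ⟨k, hk⟩ := h.2 (n + 1)
    exact ⟨k, hk _ (pre_Pre x k) (by simp)⟩
  have hd : Primrec fun q : ℕ => f ((decode (α := List Bool) q).getD []) :=
    hf.comp (Primrec.option_getD.comp Primrec.decode (Primrec.const []))
  have hp : Primrec fun q : ℕ =>
      q.unpair.1 + 1 - (f ((decode (α := List Bool) q.unpair.2).getD [])).length :=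
    Primrec.nat_sub.comp (Primrec.succ.comp (Primrec.fst.comp Primrec.unpair))
      (Primrec.list_length.comp (hd.comp (Primrec.snd.comp Primrec.unpair)))
  have hg := (TotIn.of_primrec hp).comp
    ((TotIn.of_primrec (O := {chiB x}) (Primrec.fst.comp Primrec.unpair)).pair
      ((totIn_pre x).comp (TotIn.of_primrec (Primrec.snd.comp Primrec.unpair))))
  have hr : TotIn {chiB x} fun n => Nat.find (hex n) := by
    refine hg.find (fun a => ?_) fun a m hm => ?_
    · have := Nat.find_spec (hex a)
      simp only [Nat.unpair_pair, encodek, Option.getD_some]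
      omega
    · have := Nat.find_min (hex a) hm
      simp only [Nat.unpair_pair, encodek, Option.getD_some]
      omega
  have hq : Primrec fun q : ℕ =>
      cond ((f ((decode (α := List Bool) q.unpair.2).getD [])).getD q.unpair.1 false) 1 0 :=
    Primrec.cond ((Primrec.list_getD false).comp (hd.comp (Primrec.snd.comp Primrec.unpair))
      (Primrec.fst.comp Primrec.unpair)) (Primrec.const 1) (Primrec.const 0)
  have := (TotIn.of_primrec hq).comp
    ((TotIn.of_primrec (O := {chiB x}) Primrec.id).pair ((totIn_pre x).comp hr))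
  refine Nat.RecursiveIn.of_eq this fun n => ?_
  simp only [Nat.unpair_pair, encodek, Option.getD_some, id, chiB]
  rw [List.getD_eq_getElem?_getD, (h.1 _ (pre_Pre x _)).get (Nat.find_spec (hex n))]
  rfl

theorem leT_iff_turingReducible {x y : C} : LeT y x ↔ TuringReducible (chiB y) (chiB x) :=
  ⟨fun h => RecursiveIn.iff_nat.2 (recursiveIn_of_leT h),
    fun h => leT_of_recursiveIn (RecursiveIn.iff_nat.1 h)⟩

theorem chi_eq_chiB (x : C) : chi {n | x n = true} = chiB x := by
  funext n
  cases h : x n <;> simp [chi, chiB, h]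

/-- The degree of a point of Cantor space. -/
noncomputable def deg (x : C) : SetDegree :=
  ⟨toAntisymmetrization TuringReducible (chi {n | x n = true}), _, rfl⟩

theorem deg_le_deg {x y : C} : deg x ≤ deg y ↔ LeT x y := by
  rw [leT_iff_turingReducible, ← chi_eq_chiB, ← chi_eq_chiB]
  rfl

theorem deg_surjective : Function.Surjective deg := by
  rintro ⟨d, A, rfl⟩
  classical
  refine ⟨fun n => decide (n ∈ A), Subtype.ext ?_⟩
  simp [deg]

end Vale.Agent.P327
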