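import Vale.Agent.P327.Generic

/-!
An automorphism is captured, on points and on sequences, by countably many Borel candidates.
-/

namespace Vale.Agent.P327

open Filter Set Topology

/-- A relation on Cantor space inducing an automorphism of the degrees. -/
structure Auto (ρ : C → C → Prop) : Prop where
  total : ∀ x, ∃ y, ρ x y
  onto : ∀ y, ∃ x, ρ x y
  le_iff : ∀ {x x' y y'}, ρ x x' → ρ y y' → (LeT x y ↔ LeT x' y')
  congr : ∀ {x x' y y'}, ρ x x' → EqT x y → EqT x' y' → ρ y y'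

theorem Auto.symm {ρ : C → C → Prop} (h : Auto ρ) : Auto fun x y => ρ y x :=
  ⟨h.onto, h.total, fun a b => (h.le_iff a b).symm, fun a b c => h.congr a c b⟩

theorem Auto.eqT {ρ : C → C → Prop} (h : Auto ρ) {x x' y y' : C} (a : ρ x x') (b : ρ y y')
    (e : EqT x y) : EqT x' y' := ⟨(h.le_iff a b).1 e.1, (h.le_iff b a).1 e.2⟩

theorem Auto.jn {ρ : C → C → Prop} (h : Auto ρ) {x x' y y' : C} (a : ρ x x') (b : ρ y y') :
    ρ (jn x y) (jn x' y') := by
  obtain ⟨w, hw⟩ := h.total (P327.jn x y)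
  obtain ⟨u, hu⟩ := h.onto (P327.jn x' y')
  refine h.congr hw (EqT.refl _) ⟨(h.le_iff hw hu).1 ?_, ?_⟩
  · exact ((h.le_iff a hu).2 (le_jn_left _ _)).jn ((h.le_iff b hu).2 (le_jn_right _ _))
  · exact ((h.le_iff a hw).1 (le_jn_left _ _)).jn ((h.le_iff b hw).1 (le_jn_right _ _))

theorem Auto.meet {ρ : C → C → Prop} (h : Auto ρ) {u u' v v' w w' : C} (a : ρ u u') (b : ρ v v')
    (c : ρ w w') (m : Meet u v w) : Meet u' v' w' := by
  refine ⟨(h.le_iff c a).1 m.1, (h.le_iff c b).1 m.2.1, fun y' h1 h2 => ?_⟩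
  obtain ⟨y, hy⟩ := h.onto y'
  exact (h.le_iff hy c).1 (m.2.2 y ((h.le_iff hy a).2 h1) ((h.le_iff hy b).2 h2))

theorem Auto.exists_d {ρ : C → C → Prop} (h : Auto ρ) :
    ∃ d : Fn × Fn → C → C, (∀ j, Measurable (d j)) ∧ ∀ q, ∃ j, ρ q (d j q) := by
  classical
  obtain ⟨A, hA⟩ := exists_code₁
  obtain ⟨K, hK⟩ := split hA
  choose P hP using fun i => h.onto (col A i)
  obtain ⟨Q, hQ⟩ := h.onto (P327.jn K A)
  let dec : C → C := fun w i => decide (LeT (P i) w)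
  have hdec : Measurable dec :=
    measurable_pi_lambda _ fun i => measurable_decide (by fun_prop)
  refine ⟨fun j q => xr (dec (out j.1.1 (P327.jn q Q))) (dec (out j.2.1 (P327.jn q Q))),
    fun j => by fun_prop, fun q => ?_⟩
  obtain ⟨Z, hZ⟩ := h.total q
  have key : ∀ W, (∀ i, LeT (col A i) (gz W A) ↔ W i = true) → LeT W (P327.jn Z K) →
      ∃ f : Fn, dec (out f.1 (P327.jn q Q)) = W := by
    intro W hW hle
    obtain ⟨w, hw⟩ := h.onto (gz W A)
    have h1 : LeT (gz W A) (P327.jn Z (P327.jn K A)) :=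
      (gz_le W A).trans ((hle.trans ((le_jn_left _ _).jn ((le_jn_left _ _).right _))).jn
        ((le_jn_right _ _).right _))
    obtain ⟨f, hf⟩ := ((h.le_iff hw (h.jn hZ hQ)).2 h1).exists_out
    refine ⟨f, ?_⟩
    rw [hf]
    funext i
    simp only [dec, h.le_iff (hP i) hw, hW i]
    simp
  obtain ⟨Z₁, h1, h2, h3⟩ := hK Z
  obtain ⟨f₁, hf₁⟩ := key Z₁ h1 h3
  obtain ⟨f₂, hf₂⟩ := key _ h2 (h3.xr (le_jn_left _ _))
  refine ⟨(f₁, f₂), ?_⟩
  simp only [hf₁, hf₂, xr_xr_cancel']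
  exact hZ

/-- Sequences of points of Cantor space. -/
abbrev Om := ℕ → C

/-- Index set of the unary candidates. -/
abbrev J := Fn × Fn

theorem Auto.exists_cand {ρ : C → C → Prop} (h : Auto ρ) :
    ∃ cand : J × J × J × J → ℕ → Om × C × C → Prop, (∀ e n, Measurable (cand e n)) ∧
      ∀ s : Om, ∀ᶠ b in residual C, ∃ e, ∀ n y, cand e n (s, b, y) ↔ ρ (s n) y := by
  obtain ⟨d, hd, hdq⟩ := h.exists_d
  obtain ⟨A, hA⟩ := exists_code₂
  choose P hP using fun i => h.total (col A i)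
  refine ⟨fun e n p => ∃ f : Fn,
    Meet (P327.jn (P n) (d e.2.1 (xr p.2.1 A))) (d e.1 p.2.1) (out f.1 (d e.1 p.2.1)) ∧
    Meet (P327.jn (out f.1 (d e.1 p.2.1)) (d e.2.2.2 (xr p.2.1 (sjn p.1)))) (d e.2.2.1 (sjn p.1))
      p.2.2, fun e n => ?_, fun s => ?_⟩
  · have h1 := hd e.1
    have h2 := hd e.2.1
    have h3 := hd e.2.2.1
    have h4 := hd e.2.2.2
    exact Measurable.exists fun f => Measurable.and (by fun_prop) (by fun_prop)
  · filter_upwards [hA, code₃ (sjn s)] with b hb1 hb2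
    obtain ⟨j1, h1⟩ := hdq b
    obtain ⟨j2, h2⟩ := hdq (xr b A)
    obtain ⟨j3, h3⟩ := hdq (sjn s)
    obtain ⟨j4, h4⟩ := hdq (xr b (sjn s))
    refine ⟨(j1, j2, j3, j4), fun n y => ?_⟩
    obtain ⟨w, hw⟩ := h.total (col b n)
    have m1 := h.meet (h.jn (hP n) h2) h1 hw (hb1 n)
    have hb3 := hb2 n
    rw [col_sjn] at hb3
    constructor
    · rintro ⟨f, hf1, hf2⟩
      obtain ⟨y', hy'⟩ := h.total (s n)
      have m2 := h.meet (h.jn hw h4) h3 hy' hb3
      have e1 := m1.unique hf1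
      have e2 := (m2.congr (e1.jn (EqT.refl _)) (EqT.refl _) (EqT.refl _)).unique hf2
      exact h.congr hy' (EqT.refl _) e2
    · intro hy
      obtain ⟨f, rfl⟩ := m1.2.1.exists_out
      exact ⟨f, m1, h.meet (h.jn hw h4) h3 hy hb3⟩

end Vale.Agent.P327
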