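import Mathlib.Computability.PartrecCode
import Mathlib.Tactic

/-!
Turing reducibility between points of Cantor space, in a normal form given by primitive
recursive maps on finite strings.
-/

namespace Vale.Agent.P327

open Encodable

/-- Cantor space. -/
abbrev C := ℕ → Bool

/-- `l` is an initial segment of `x`. -/
def Pre (l : List Bool) (x : C) : Prop := ∀ i b, l[i]? = some b → x i = b

/-- The initial segment of length `k`. -/
def pre (x : C) (k : ℕ) : List Bool := (List.range k).map x

@[simp] theorem length_pre (x : C) (k : ℕ) : (pre x k).length = k := by simp [pre]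

theorem getElem?_pre (x : C) (k i : ℕ) : (pre x k)[i]? = if i < k then some (x i) else none := by
  unfold pre
  split_ifs with h
  · simp [h]
  · simp; omega

theorem pre_Pre (x : C) (k : ℕ) : Pre (pre x k) x := by
  intro i b h
  rw [getElem?_pre] at h
  split_ifs at h
  simpa using h

theorem Pre.get {l : List Bool} {x : C} (h : Pre l x) {i : ℕ} (hi : i < l.length) :
    l[i]? = some (x i) := by
  have : l[i]? = some l[i] := List.getElem?_eq_getElem hi
  rw [this, h i _ this]

theorem Pre.eq_pre {l : List Bool} {x : C} (h : Pre l x) : l = pre x l.length := by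
  apply List.ext_getElem?
  intro i
  rw [getElem?_pre]
  split_ifs with hi
  · exact h.get hi
  · simp; omega

/-- `f` computes `y` from `x`. -/
def Red (f : List Bool → List Bool) (x y : C) : Prop :=
  (∀ l, Pre l x → Pre (f l) y) ∧ ∀ n, ∃ k, ∀ l, Pre l x → k ≤ l.length → n ≤ (f l).length

/-- Bitwise version of `Red`. -/
def BRed (ψ : List Bool → ℕ → Option Bool) (x y : C) : Prop :=
  (∀ l n b, Pre l x → ψ l n = some b → y n = b) ∧
    ∀ n, ∃ k, ∀ l, Pre l x → k ≤ l.length → (ψ l n).isSome

theorem Red.comp {f g : List Bool → List Bool} {x y z : C} (hf : Red f x y) (hg : Red g y z) :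
    Red (fun l => g (f l)) x z := by
  refine ⟨fun l hl => hg.1 _ (hf.1 l hl), fun n => ?_⟩
  obtain ⟨k, hk⟩ := hg.2 n
  obtain ⟨k', hk'⟩ := hf.2 k
  exact ⟨k', fun l hl h => hk _ (hf.1 l hl) (hk' l hl h)⟩

theorem Red.id (x : C) : Red (fun l => l) x x :=
  ⟨fun _ h => h, fun n => ⟨n, fun _ _ h => h⟩⟩

theorem Red.bit {f : List Bool → List Bool} {x y : C} (h : Red f x y) (n : ℕ) :
    ∃ k, ∀ l, Pre l x → k ≤ l.length → (f l)[n]? = some (y n) := by
  obtain ⟨k, hk⟩ := h.2 (n + 1)
  exact ⟨k, fun l hl hkl => (h.1 l hl).get (hk l hl hkl)⟩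

theorem Red.unique {f : List Bool → List Bool} {x y y' : C} (h : Red f x y) (h' : Red f x y') :
    y = y' := by
  funext n
  obtain ⟨k, hk⟩ := h.bit n
  exact (h'.1 _ (pre_Pre x k) n _ (hk _ (pre_Pre x k) (by simp))).symm

/-- The output of the functional `f` on the oracle `x`. -/
noncomputable def out (f : List Bool → List Bool) (x : C) : C := fun n => by
  classical exact decide (∃ k, (f (pre x k))[n]? = some true)

theorem Red.out_eq {f : List Bool → List Bool} {x y : C} (h : Red f x y) : out f x = y := by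
  funext n
  obtain ⟨k, hk⟩ := h.bit n
  have h1 := hk _ (pre_Pre x k) (by simp)
  unfold out
  cases hy : y n
  · simp only [decide_eq_false_iff_not, not_exists]
    intro k' hk'
    have := h.1 _ (pre_Pre x k') n _ hk'
    simp [hy] at this
  · simp only [decide_eq_true_eq]
    exact ⟨k, by rw [h1, hy]⟩

/-- The longest string of defined values of `φ`, of length at most `N`. -/
def str (φ : ℕ → Option Bool) (N : ℕ) : List Bool :=
  (List.range ((List.range N).findIdx fun i => !(φ i).isSome)).map fun i => (φ i).getD false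

theorem str_primrec {α : Type} [Primcodable α] {φ : α → ℕ → Option Bool} {N : α → ℕ}
    (hφ : Primrec₂ φ) (hN : Primrec N) : Primrec fun a => str (φ a) (N a) := by
  unfold str
  refine Primrec.list_map (Primrec.list_range.comp ?_) ?_
  · refine Primrec.list_findIdx (Primrec.list_range.comp hN) ?_
    exact (Primrec.not.comp (Primrec.option_isSome.comp hφ)).to₂
  · exact (Primrec.option_getD.comp hφ (Primrec.const false)).to₂

theorem str_sound {φ : ℕ → Option Bool} {N i : ℕ} {b : Bool} (h : (str φ N)[i]? = some b) :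
    φ i = some b := by
  unfold str at h
  rw [List.getElem?_map] at h
  by_cases hi : i < (List.range N).findIdx fun i => !(φ i).isSome
  · rw [List.getElem?_range hi] at h
    have h2 := List.not_of_lt_findIdx hi
    simp only [List.getElem_range, Bool.not_eq_eq_eq_not, Bool.not_false] at h2
    obtain ⟨c, hc⟩ := Option.isSome_iff_exists.1 h2
    simp [hc] at h
    rw [hc, h]
  · rw [List.getElem?_eq_none (by rw [List.length_range]; exact Nat.le_of_not_lt hi)] at h
    simp at h

theorem str_length {φ : ℕ → Option Bool} {N n : ℕ} (hn : n ≤ N)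
    (h : ∀ i < n, (φ i).isSome) : n ≤ (str φ N).length := by
  unfold str
  simp only [List.length_map, List.length_range]
  by_contra hlt
  push Not at hlt
  have h1 : ((List.range N).findIdx fun i => !(φ i).isSome) < (List.range N).length := by
    rw [List.length_range]; omega
  have h2 := List.findIdx_getElem (w := h1)
  simp only [List.getElem_range, Bool.not_eq_eq_eq_not, Bool.not_true] at h2
  have := h _ hlt
  rw [h2] at this
  exact absurd this (by simp)

theorem exists_forall_lt {p : ℕ → ℕ → Prop} (hmono : ∀ i k k', k ≤ k' → p i k → p i k')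
    (n : ℕ) (h : ∀ i < n, ∃ k, p i k) : ∃ k, ∀ i < n, p i k := by
  induction n with
  | zero => exact ⟨0, by simp⟩
  | succ n ih =>
    obtain ⟨k, hk⟩ := ih fun i hi => h i (by omega)
    obtain ⟨k', hk'⟩ := h n (by omega)
    refine ⟨max k k', fun i hi => ?_⟩
    rcases Nat.lt_succ_iff_lt_or_eq.1 hi with h1 | rfl
    · exact hmono _ _ _ (le_max_left _ _) (hk i h1)
    · exact hmono _ _ _ (le_max_right _ _) hk'

theorem BRed.red {ψ : List Bool → ℕ → Option Bool} {x y : C} (h : BRed ψ x y) :
    Red (fun l => str (ψ l) l.length) x y := by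
  refine ⟨fun l hl i b hb => h.1 l i b hl (str_sound hb), fun n => ?_⟩
  obtain ⟨k, hk⟩ := exists_forall_lt
    (p := fun i k => ∀ l, Pre l x → k ≤ l.length → (ψ l i).isSome)
    (fun i k k' hkk hp l hl hle => hp l hl (le_trans hkk hle)) n (fun i _ => h.2 i)
  exact ⟨max k n, fun l hl hle => str_length (le_trans (le_max_right _ _) hle)
    fun i hi => hk i hi l hl (le_trans (le_max_left _ _) hle)⟩

/-- Uniform reducibility of families: one functional computes `B i` from `A i` for every `i`. -/
def URed {ι : Type} (A B : ι → C) : Prop :=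
  ∃ f : List Bool → List Bool, Primrec f ∧ ∀ i, Red f (A i) (B i)

/-- `y` is computable from `x`. -/
def LeT (y x : C) : Prop := ∃ f : List Bool → List Bool, Primrec f ∧ Red f x y

/-- Turing equivalence. -/
def EqT (x y : C) : Prop := LeT x y ∧ LeT y x

/-- A sequence uniformly computable from `O`. -/
def USeq (O : C) (Z : ℕ → C) : Prop :=
  ∃ F : ℕ → List Bool → List Bool, Primrec₂ F ∧ ∀ i, Red (F i) O (Z i)

theorem URed.of_bits {ι : Type} {A B : ι → C} {ψ : List Bool → ℕ → Option Bool}
    (hψ : Primrec₂ ψ) (h : ∀ i, BRed ψ (A i) (B i)) : URed A B :=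
  ⟨_, str_primrec hψ Primrec.list_length, fun i => (h i).red⟩

theorem LeT.of_bits {x y : C} {ψ : List Bool → ℕ → Option Bool}
    (hψ : Primrec₂ ψ) (h : BRed ψ x y) : LeT y x :=
  ⟨_, str_primrec hψ Primrec.list_length, h.red⟩

theorem URed.leT {ι : Type} {A B : ι → C} (h : URed A B) (i : ι) : LeT (B i) (A i) :=
  let ⟨f, hf, h⟩ := h; ⟨f, hf, h i⟩

theorem LeT.uRed {x y : C} (h : LeT y x) (ι : Type) : URed (fun _ : ι => x) (fun _ => y) :=
  let ⟨f, hf, h⟩ := h; ⟨f, hf, fun _ => h⟩

theorem URed.refl {ι : Type} (A : ι → C) : URed A A := ⟨_, Primrec.id, fun i => Red.id (A i)⟩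

theorem URed.trans {ι : Type} {A B D : ι → C} (h : URed A B) (h' : URed B D) : URed A D :=
  let ⟨_, hf, h⟩ := h
  let ⟨_, hg, h'⟩ := h'
  ⟨_, hg.comp hf, fun i => (h i).comp (h' i)⟩

theorem URed.reindex {ι κ : Type} {A B : ι → C} (h : URed A B) (e : κ → ι) :
    URed (fun k => A (e k)) (fun k => B (e k)) :=
  let ⟨f, hf, h⟩ := h; ⟨f, hf, fun k => h (e k)⟩

theorem LeT.refl (x : C) : LeT x x := ⟨_, Primrec.id, Red.id x⟩

theorem LeT.trans {x y z : C} (h : LeT x y) (h' : LeT y z) : LeT x z :=
  let ⟨_, hf, h⟩ := h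
  let ⟨_, hg, h'⟩ := h'
  ⟨_, hf.comp hg, h'.comp h⟩

theorem EqT.refl (x : C) : EqT x x := ⟨LeT.refl x, LeT.refl x⟩
theorem EqT.symm {x y : C} (h : EqT x y) : EqT y x := ⟨h.2, h.1⟩
theorem EqT.trans {x y z : C} (h : EqT x y) (h' : EqT y z) : EqT x z :=
  ⟨h.1.trans h'.1, h'.2.trans h.2⟩

/-- Join. -/
def jn (x y : C) : C := fun n => cond n.bodd (y n.div2) (x n.div2)

@[simp] theorem jn_even (x y : C) (n : ℕ) : jn x y (2 * n) = x n := by
  simp [jn, Nat.div2_val]

@[simp] theorem jn_odd (x y : C) (n : ℕ) : jn x y (2 * n + 1) = y n := by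
  simp [jn, Nat.div2_val]

theorem URed.jn {ι : Type} {A B D : ι → C} (h : URed A B) (h' : URed A D) :
    URed A fun i => jn (B i) (D i) := by
  obtain ⟨f, hf, h⟩ := h
  obtain ⟨g, hg, h'⟩ := h'
  refine URed.of_bits (ψ := fun l n => cond n.bodd (g l)[n.div2]? (f l)[n.div2]?) ?_ fun i => ?_
  · exact Primrec.cond (Primrec.nat_bodd.comp Primrec.snd)
      (Primrec.list_getElem?.comp (hg.comp Primrec.fst) (Primrec.nat_div2.comp Primrec.snd))
      (Primrec.list_getElem?.comp (hf.comp Primrec.fst) (Primrec.nat_div2.comp Primrec.snd))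
  · constructor
    · intro l n b hl hb
      unfold P327.jn
      cases hn : n.bodd
      · simp only [hn, cond_false] at hb ⊢
        exact (h i).1 l hl _ _ hb
      · simp only [hn, cond_true] at hb ⊢
        exact (h' i).1 l hl _ _ hb
    · intro n
      obtain ⟨k, hk⟩ := (h i).bit n.div2
      obtain ⟨k', hk'⟩ := (h' i).bit n.div2
      refine ⟨max k k', fun l hl hle => ?_⟩
      beta_reduce
      rw [hk l hl (le_trans (le_max_left _ _) hle), hk' l hl (le_trans (le_max_right _ _) hle)]
      cases n.bodd <;> rfl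

/-- A bounded truth-table reduction with two queries. -/
theorem uRed_tt {a b : ℕ → ℕ} {g : ℕ → Bool × Bool → Bool} (ha : Primrec a) (hb : Primrec b)
    (hg : Primrec₂ g) : URed (fun x : C => x) fun x n => g n (x (a n), x (b n)) := by
  refine URed.of_bits
    (ψ := fun l n => l[a n]?.bind fun u => l[b n]?.map fun v => g n (u, v)) ?_ fun x => ?_
  · refine Primrec.option_bind
      (Primrec.list_getElem?.comp Primrec.fst (ha.comp Primrec.snd)) ?_
    refine Primrec.option_map
      (Primrec.list_getElem?.comp (Primrec.fst.comp Primrec.fst)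
        (hb.comp (Primrec.snd.comp Primrec.fst))) ?_
    exact (hg.comp (Primrec.snd.comp (Primrec.fst.comp Primrec.fst))
      (Primrec.pair (Primrec.snd.comp Primrec.fst) Primrec.snd)).to₂
  · constructor
    · intro l n c hl hc
      simp only [Option.bind_eq_some_iff, Option.map_eq_some_iff] at hc
      obtain ⟨u, hu, v, hv, rfl⟩ := hc
      beta_reduce
      rw [hl _ _ hu, hl _ _ hv]
    · intro n
      refine ⟨max (a n) (b n) + 1, fun l hl hle => ?_⟩
      beta_reduce
      rw [hl.get (i := a n) (by omega), hl.get (i := b n) (by omega)]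
      simp

theorem leT_tt {a b : ℕ → ℕ} {g : ℕ → Bool × Bool → Bool} (ha : Primrec a) (hb : Primrec b)
    (hg : Primrec₂ g) {x y : C} (h : ∀ n, y n = g n (x (a n), x (b n))) : LeT y x := by
  have := (uRed_tt ha hb hg).leT x
  rwa [← funext h] at this

theorem uRed_left {ι : Type} (A B : ι → C) : URed (fun i => jn (A i) (B i)) A := by
  have := (uRed_tt (a := fun n => 2 * n) (b := fun n => 2 * n) (g := fun _ p => p.1)
    Primrec.nat_double Primrec.nat_double (Primrec.fst.comp Primrec.snd).to₂).reindex
    fun i => jn (A i) (B i)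
  simpa using this

theorem uRed_right {ι : Type} (A B : ι → C) : URed (fun i => jn (A i) (B i)) B := by
  have := (uRed_tt (a := fun n => 2 * n + 1) (b := fun n => 2 * n + 1) (g := fun _ p => p.1)
    Primrec.nat_double_succ Primrec.nat_double_succ (Primrec.fst.comp Primrec.snd).to₂).reindex
    fun i => jn (A i) (B i)
  simpa using this

theorem le_jn_left (x y : C) : LeT x (jn x y) := (uRed_left (fun _ : Unit => x) fun _ => y).leT ()
theorem le_jn_right (x y : C) : LeT y (jn x y) :=
  (uRed_right (fun _ : Unit => x) fun _ => y).leT ()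

theorem LeT.jn {x y z : C} (h : LeT x z) (h' : LeT y z) : LeT (jn x y) z :=
  ((h.uRed Unit).jn (h'.uRed Unit)).leT ()

theorem LeT.left {x y : C} (h : LeT x y) (z : C) : LeT x (P327.jn y z) := h.trans (le_jn_left _ _)
theorem LeT.right {x y : C} (h : LeT x y) (z : C) : LeT x (P327.jn z y) :=
  h.trans (le_jn_right _ _)

theorem LeT.jn_mono {x y x' y' : C} (h : LeT x x') (h' : LeT y y') :
    LeT (P327.jn x y) (P327.jn x' y') := (h.left _).jn (h'.right _)

theorem EqT.jn {x y x' y' : C} (h : EqT x x') (h' : EqT y y') :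
    EqT (jn x y) (jn x' y') := ⟨h.1.jn_mono h'.1, h.2.jn_mono h'.2⟩

/-- Pointwise sum mod two. -/
def xr (x y : C) : C := fun n => xor (x n) (y n)
/-- Pointwise product. -/
def an (x y : C) : C := fun n => x n && y n
/-- Right shift. -/
def sh (x : C) : C := fun n => Nat.casesOn n false x
/-- Indicator of a point. -/
def ee (k : ℕ) : C := fun n => decide (n = k)
/-- Column. -/
def col (x : C) (i : ℕ) : C := fun n => x (Nat.pair i n)
/-- Join of a sequence. -/
def sjn (h : ℕ → C) : C := fun n => h n.unpair.1 n.unpair.2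
/-- Overwrite the first `m` bits. -/
def ow (m : ℕ) (σ x : C) : C := fun n => if n < m then σ n else x n

@[simp] theorem col_sjn (h : ℕ → C) (i : ℕ) : col (sjn h) i = h i := by
  funext n; simp [col, sjn]

theorem xr_le (x y : C) : LeT (xr x y) (jn x y) :=
  leT_tt (a := fun n => 2 * n) (b := fun n => 2 * n + 1) (g := fun _ p => xor p.1 p.2)
    Primrec.nat_double Primrec.nat_double_succ
    ((Primrec.dom_finite fun p : Bool × Bool => xor p.1 p.2).comp Primrec.snd).to₂
    (by simp [xr])

theorem an_le (x y : C) : LeT (an x y) (jn x y) :=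
  leT_tt (a := fun n => 2 * n) (b := fun n => 2 * n + 1) (g := fun _ p => p.1 && p.2)
    Primrec.nat_double Primrec.nat_double_succ
    ((Primrec.dom_finite fun p : Bool × Bool => p.1 && p.2).comp Primrec.snd).to₂
    (by simp [an])

theorem sh_le (x : C) : LeT (sh x) x := by
  refine leT_tt (a := Nat.pred) (b := Nat.pred) (g := fun n p => if n = 0 then false else p.1)
    Primrec.pred Primrec.pred ?_ ?_
  · exact (Primrec.ite (Primrec.eq.comp Primrec.fst (Primrec.const 0)) (Primrec.const false)
      (Primrec.fst.comp Primrec.snd)).to₂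
  · intro n; cases n <;> simp [sh]

theorem col_le (x : C) (i : ℕ) : LeT (col x i) x :=
  leT_tt (a := fun n => Nat.pair i n) (b := fun n => n) (g := fun _ p => p.1)
    (Primrec₂.natPair.comp (Primrec.const i) Primrec.id) Primrec.id
    (Primrec.fst.comp Primrec.snd).to₂ (by simp [col])

theorem ow_le_of (m : ℕ) (σ : C) {x y : C} (h : ∀ n, m ≤ n → x n = y n) :
    LeT (ow m σ x) y := by
  refine leT_tt (a := fun n => n) (b := fun n => n)
    (g := fun n p => if n < m then (pre σ m).getD n false else p.1) Primrec.id Primrec.id ?_ ?_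
  · exact (Primrec.ite (Primrec.nat_lt.comp Primrec.fst (Primrec.const m))
      ((Primrec.list_getD false).comp (Primrec.const _) Primrec.fst)
      (Primrec.fst.comp Primrec.snd)).to₂
  · intro n
    unfold ow
    split_ifs with hn
    · rw [List.getD_eq_getElem?_getD, getElem?_pre, if_pos hn]; rfl
    · exact h n (by omega)

theorem leT_of_eventually_eq {x y : C} (m : ℕ) (h : ∀ n, m ≤ n → x n = y n) : LeT x y := by
  have := ow_le_of m x h
  rwa [show ow m x x = x by funext n; simp [ow]] at this

theorem eqT_of_eventually_eq {x y : C} (m : ℕ) (h : ∀ n, m ≤ n → x n = y n) : EqT x y :=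
  ⟨leT_of_eventually_eq m h, leT_of_eventually_eq m fun n hn => (h n hn).symm⟩

theorem ow_eqT (m : ℕ) (σ x : C) : EqT (ow m σ x) x :=
  eqT_of_eventually_eq m fun n hn => by simp [ow, Nat.not_lt.2 hn]

theorem xr_ee_eqT (x : C) (k : ℕ) : EqT (xr x (ee k)) x :=
  eqT_of_eventually_eq (k + 1) fun n hn => by
    have : n ≠ k := by omega
    simp [xr, ee, this]

theorem LeT.xr {x y z : C} (h : LeT x z) (h' : LeT y z) : LeT (xr x y) z :=
  (xr_le x y).trans (h.jn h')

theorem LeT.an {x y z : C} (h : LeT x z) (h' : LeT y z) : LeT (an x y) z :=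
  (an_le x y).trans (h.jn h')

theorem LeT.sh {x z : C} (h : LeT x z) : LeT (sh x) z := (sh_le x).trans h

theorem LeT.col {x z : C} (h : LeT x z) (i : ℕ) : LeT (col x i) z := (col_le x i).trans h

@[simp] theorem xr_xr_cancel (x y : C) : xr (xr x y) y = x := by
  funext n; simp [xr]

@[simp] theorem xr_xr_cancel' (x y : C) : xr x (xr x y) = y := by
  funext n; simp [xr]

theorem xr_comm (x y : C) : xr x y = xr y x := by
  funext n; simp [xr, Bool.xor_comm]

theorem col_xr (x y : C) (i : ℕ) : col (xr x y) i = xr (col x i) (col y i) := rfl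

/-! Uniform sequences. -/

theorem USeq.const {O x : C} (h : LeT x O) : USeq O fun _ => x :=
  let ⟨f, hf, h⟩ := h
  ⟨fun _ l => f l, (hf.comp Primrec.snd).to₂, fun _ => h⟩

theorem USeq.app {O : C} {P Q : ℕ → C} (h : USeq O P) (h' : URed P Q) : USeq O Q :=
  let ⟨F, hF, h⟩ := h
  let ⟨g, hg, h'⟩ := h'
  ⟨fun i l => g (F i l), (hg.comp hF).to₂, fun i => (h i).comp (h' i)⟩

theorem USeq.jn {O : C} {P Q : ℕ → C} (h : USeq O P) (h' : USeq O Q) :
    USeq O fun i => jn (P i) (Q i) := by
  obtain ⟨f, hf, h⟩ := h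
  obtain ⟨g, hg, h'⟩ := h'
  refine ⟨fun i l => str (fun n => cond n.bodd (g i l)[n.div2]? (f i l)[n.div2]?) l.length, ?_,
    fun i => BRed.red (ψ := fun l n => cond n.bodd (g i l)[n.div2]? (f i l)[n.div2]?) ?_⟩
  · refine str_primrec (α := ℕ × List Bool) ?_ (Primrec.list_length.comp Primrec.snd)
    exact Primrec.cond (Primrec.nat_bodd.comp Primrec.snd)
      (Primrec.list_getElem?.comp (Primrec.comp hg Primrec.fst)
        (Primrec.nat_div2.comp Primrec.snd))
      (Primrec.list_getElem?.comp (Primrec.comp hf Primrec.fst)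
        (Primrec.nat_div2.comp Primrec.snd))
  · constructor
    · intro l n b hl hb
      unfold P327.jn
      cases hn : n.bodd
      · simp only [hn, cond_false] at hb ⊢
        exact (h i).1 l hl _ _ hb
      · simp only [hn, cond_true] at hb ⊢
        exact (h' i).1 l hl _ _ hb
    · intro n
      obtain ⟨k, hk⟩ := (h i).bit n.div2
      obtain ⟨k', hk'⟩ := (h' i).bit n.div2
      refine ⟨max k k', fun l hl hle => ?_⟩
      beta_reduce
      rw [hk l hl (le_trans (le_max_left _ _) hle), hk' l hl (le_trans (le_max_right _ _) hle)]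
      cases n.bodd <;> rfl

/-- Interleaving of two strings. -/
def il (s t : List Bool) : List Bool :=
  str (fun n => cond n.bodd t[n.div2]? s[n.div2]?) (2 * min s.length t.length)

theorem il_primrec : Primrec₂ il := by
  unfold il
  refine str_primrec (α := List Bool × List Bool) ?_ ?_
  · exact Primrec.cond (Primrec.nat_bodd.comp Primrec.snd)
      (Primrec.list_getElem?.comp (Primrec.snd.comp Primrec.fst)
        (Primrec.nat_div2.comp Primrec.snd))
      (Primrec.list_getElem?.comp (Primrec.fst.comp Primrec.fst)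
        (Primrec.nat_div2.comp Primrec.snd))
  · exact Primrec.nat_double.comp (Primrec.nat_min.comp (Primrec.list_length.comp Primrec.fst)
      (Primrec.list_length.comp Primrec.snd))

theorem Pre.il {s t : List Bool} {x y : C} (hs : Pre s x) (ht : Pre t y) :
    Pre (il s t) (jn x y) := by
  intro n b hb
  have := str_sound hb
  unfold jn
  cases hn : n.bodd
  · simp only [hn, cond_false] at this ⊢
    exact hs _ _ this
  · simp only [hn, cond_true] at this ⊢
    exact ht _ _ this

theorem le_length_il {s t : List Bool} {k : ℕ} (hs : k ≤ s.length) (ht : k ≤ t.length) :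
    k ≤ (il s t).length := by
  refine str_length (by omega) fun i hi => ?_
  have : i.div2 < k := by rw [Nat.div2_val]; omega
  cases i.bodd
  · simp; omega
  · simp; omega

theorem USeq.rec {O : C} {Z : ℕ → C} (h0 : LeT (Z 0) O)
    (hs : URed (fun i => P327.jn O (Z i)) fun i => Z (i + 1)) : USeq O Z := by
  obtain ⟨f, hf, h0⟩ := h0
  obtain ⟨g, hg, hs⟩ := hs
  refine ⟨fun i l => Nat.rec (f l) (fun _ s => g (il l s)) i, ?_, fun i => ?_⟩
  · refine Primrec.nat_rec' (α := ℕ × List Bool) (f := fun p => p.1) (g := fun p => f p.2)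
      (h := fun p q => g (il p.2 q.2)) Primrec.fst (hf.comp Primrec.snd) ?_
    exact (hg.comp (il_primrec.comp (Primrec.snd.comp Primrec.fst)
      (Primrec.snd.comp Primrec.snd))).to₂
  · induction i with
    | zero => exact h0
    | succ i ih =>
      refine ⟨fun l hl => (hs i).1 _ (hl.il (ih.1 l hl)), fun n => ?_⟩
      obtain ⟨k, hk⟩ := (hs i).2 n
      obtain ⟨k', hk'⟩ := ih.2 k
      refine ⟨max k k', fun l hl hle => hk _ (hl.il (ih.1 l hl)) ?_⟩
      exact le_length_il (le_trans (le_max_left _ _) hle)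
        (hk' l hl (le_trans (le_max_right _ _) hle))

/-- Two strings disagree somewhere. -/
def clash (s t : List Bool) : Bool :=
  decide (∃ i < min s.length t.length, s[i]? ≠ t[i]?)

theorem clash_primrec : Primrec₂ clash := by
  have h1 : PrimrecRel fun (i : ℕ) (p : List Bool × List Bool) => p.1[i]? ≠ p.2[i]? :=
    (PrimrecPred.not (Primrec.eq.comp
      (Primrec.list_getElem?.comp (Primrec.fst.comp Primrec.snd) Primrec.fst)
      (Primrec.list_getElem?.comp (Primrec.snd.comp Primrec.snd) Primrec.fst))).primrecRel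
  have h3 := PrimrecRel.exists_mem_list h1
  have h2 : PrimrecPred fun p : List Bool × List Bool =>
      ∃ i < min p.1.length p.2.length, p.1[i]? ≠ p.2[i]? := by
    refine (h3.comp
      (f := fun p : List Bool × List Bool => List.range (min p.1.length p.2.length))
      (g := fun p => p)
      (Primrec.list_range.comp (Primrec.nat_min.comp (Primrec.list_length.comp Primrec.fst)
        (Primrec.list_length.comp Primrec.snd))) Primrec.id).of_eq fun p => ?_
    simp only [List.mem_range]
  exact primrecPred_iff_primrec_decide.1 h2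

theorem clash_sound {s t : List Bool} {x y : C} (hs : Pre s x) (ht : Pre t y)
    (h : clash s t = true) : x ≠ y := by
  rintro rfl
  simp only [clash, decide_eq_true_eq] at h
  obtain ⟨i, hi, h⟩ := h
  exact h (by rw [hs.get (by omega), ht.get (by omega)])

theorem clash_complete {x y : C} (h : x ≠ y) : ∃ k, ∀ s t, Pre s x → Pre t y → k ≤ s.length →
    k ≤ t.length → clash s t = true := by
  obtain ⟨i, hi⟩ := Function.ne_iff.1 h
  refine ⟨i + 1, fun s t hs ht h1 h2 => ?_⟩
  simp only [clash, decide_eq_true_eq]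
  refine ⟨i, by omega, ?_⟩
  rw [hs.get (by omega), ht.get (by omega)]
  simpa using hi

theorem USeq.decide {O x : C} {U V W : ℕ → C} (hU : USeq O U) (hV : USeq O V) (hW : USeq O W)
    (hne : ∀ i, U i ≠ V i) (hx : ∀ i, W i = cond (x i) (V i) (U i)) : LeT x O := by
  obtain ⟨f, hf, hU⟩ := hU
  obtain ⟨g, hg, hV⟩ := hV
  obtain ⟨w, hw, hW⟩ := hW
  refine LeT.of_bits (ψ := fun l i => cond (clash (w i l) (f i l)) (some true)
    (cond (clash (w i l) (g i l)) (some false) none)) ?_ ⟨?_, ?_⟩
  · exact Primrec.cond (clash_primrec.comp (hw.comp Primrec.snd Primrec.fst)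
      (hf.comp Primrec.snd Primrec.fst)) (Primrec.const _)
      (Primrec.cond (clash_primrec.comp (hw.comp Primrec.snd Primrec.fst)
        (hg.comp Primrec.snd Primrec.fst)) (Primrec.const _) (Primrec.const _))
  · intro l i b hl hb
    cases h1 : clash (w i l) (f i l)
    · cases h2 : clash (w i l) (g i l)
      · simp [h1, h2] at hb
      · have := clash_sound ((hW i).1 l hl) ((hV i).1 l hl) h2
        simp only [h1, h2, cond_false, cond_true, Option.some.injEq] at hb
        subst hb
        rw [hx i] at this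
        cases hxi : x i
        · rfl
        · simp [hxi] at this
    · have := clash_sound ((hW i).1 l hl) ((hU i).1 l hl) h1
      simp only [h1, cond_true, Option.some.injEq] at hb
      subst hb
      rw [hx i] at this
      cases hxi : x i
      · simp [hxi] at this
      · rfl
  · intro i
    cases hxi : x i
    · have hWV : W i ≠ V i := by rw [hx i, hxi]; exact hne i
      obtain ⟨k, hk⟩ := clash_complete hWV
      obtain ⟨k1, hk1⟩ := (hW i).2 k
      obtain ⟨k2, hk2⟩ := (hV i).2 k
      refine ⟨max k1 k2, fun l hl hle => ?_⟩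
      have := hk _ _ ((hW i).1 l hl) ((hV i).1 l hl)
        (hk1 l hl (le_trans (le_max_left _ _) hle)) (hk2 l hl (le_trans (le_max_right _ _) hle))
      beta_reduce
      rw [this]
      cases clash (w i l) (f i l) <;> rfl
    · have hWU : W i ≠ U i := by rw [hx i, hxi]; exact (hne i).symm
      obtain ⟨k, hk⟩ := clash_complete hWU
      obtain ⟨k1, hk1⟩ := (hW i).2 k
      obtain ⟨k2, hk2⟩ := (hU i).2 k
      refine ⟨max k1 k2, fun l hl hle => ?_⟩
      have := hk _ _ ((hW i).1 l hl) ((hU i).1 l hl)
        (hk1 l hl (le_trans (le_max_left _ _) hle)) (hk2 l hl (le_trans (le_max_right _ _) hle))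
      simp [this]

/-- The primitive recursive string maps. -/
def Fn := {f : List Bool → List Bool // Primrec f}

instance : Countable Fn := by
  have h : ∀ f : Fn, ∃ c : Nat.Partrec.Code, c.eval = fun n =>
      Part.bind (decode (α := List Bool) n) fun a => (Part.some (f.1 a)).map encode :=
    fun f => Nat.Partrec.Code.exists_code.1 f.2.to_comp
  choose c hc using h
  refine Function.Injective.countable (f := c) fun f g hfg => ?_
  apply Subtype.ext
  funext l
  have h1 := congrFun (hc f) (encode l)
  have h2 := congrFun (hc g) (encode l)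
  rw [hfg, h2] at h1
  simpa using h1.symm

instance : Nonempty Fn := ⟨⟨fun l => l, Primrec.id⟩⟩

theorem leT_iff {x y : C} : LeT y x ↔ ∃ f : Fn, Red f.1 x y :=
  ⟨fun ⟨f, hf, h⟩ => ⟨⟨f, hf⟩, h⟩, fun ⟨f, h⟩ => ⟨f.1, f.2, h⟩⟩

theorem LeT.exists_out {x y : C} (h : LeT y x) : ∃ f : Fn, out f.1 x = y :=
  let ⟨f, hf⟩ := leT_iff.1 h; ⟨f, hf.out_eq⟩

/-- `w` is the greatest lower bound of `u` and `v`. -/
def Meet (u v w : C) : Prop := LeT w u ∧ LeT w v ∧ ∀ y, LeT y u → LeT y v → LeT y w

theorem Meet.congr {u v w u' v' w' : C} (h : Meet u v w) (hu : EqT u u') (hv : EqT v v')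
    (hw : EqT w w') : Meet u' v' w' :=
  ⟨hw.2.trans (h.1.trans hu.1), hw.2.trans (h.2.1.trans hv.1), fun y h1 h2 =>
    (h.2.2 y (h1.trans hu.2) (h2.trans hv.2)).trans hw.1⟩

theorem Meet.unique {u v w w' : C} (h : Meet u v w) (h' : Meet u v w') : EqT w w' :=
  ⟨h'.2.2 _ h.1 h.2.1, h.2.2 _ h'.1 h'.2.1⟩

end Vale.Agent.P327
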