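import Vale.Agent.P327.Terms

/-!
The core argument: a Borel map respecting sums, the shift and products computes its argument.
-/

namespace Vale.Agent.P327

open Filter Set Topology

theorem tendsto_invol {X : Type*} [TopologicalSpace X] {θ : X → X} (hc : Continuous θ)
    (hi : ∀ x, θ (θ x) = x) : Tendsto θ (residual X) (residual X) :=
  tendsto_residual_of_isOpenMap hc (Homeomorph.mk ⟨θ, θ, hi, hi⟩ hc hc).isOpenMap

theorem tendsto_fst' {X Y : Type*} [TopologicalSpace X] [TopologicalSpace Y] :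
    Tendsto (Prod.fst : X × Y → X) (residual _) (residual _) :=
  tendsto_residual_of_isOpenMap continuous_fst isOpenMap_fst

theorem tendsto_snd' {X Y : Type*} [TopologicalSpace X] [TopologicalSpace Y] :
    Tendsto (Prod.snd : X × Y → Y) (residual _) (residual _) :=
  tendsto_residual_of_isOpenMap continuous_snd isOpenMap_snd

/-- Equality up to finitely many bits. -/
def E0 (x y : C) : Prop := ∃ m, ∀ n, m ≤ n → x n = y n

theorem E0.refl (x : C) : E0 x x := ⟨0, fun _ _ => rfl⟩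

theorem E0.trans {x y z : C} (h : E0 x y) (h' : E0 y z) : E0 x z :=
  let ⟨m, hm⟩ := h
  let ⟨m', hm'⟩ := h'
  ⟨max m m', fun n hn => (hm n (le_of_max_le_left hn)).trans (hm' n (le_of_max_le_right hn))⟩

theorem e0_ee (x : C) (k : ℕ) : E0 (xr x (ee k)) x :=
  ⟨k + 1, fun n hn => by
    have : n ≠ k := by omega
    simp [xr, ee, this]⟩

theorem e0_ow (m : ℕ) (σ x : C) : E0 (ow m σ x) x :=
  ⟨m, fun n hn => by simp [ow, Nat.not_lt.2 hn]⟩

theorem E0.exists_finv {x y : C} (h : E0 y x) : ∃ l, y = xr x (finv l) := by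
  obtain ⟨m, hm⟩ := h
  refine ⟨pre (xr x y) m, ?_⟩
  rw [xr_finv_pre]
  funext n
  by_cases hn : n < m
  · simp [ow, hn]
  · simp [ow, hn, hm n (by omega)]

theorem sat {p : C → Prop} (h : ∀ᶠ x in residual C, p x) :
    ∀ᶠ x in residual C, ∀ y, E0 y x → p y := by
  filter_upwards [eventually_countable_forall.2 fun l => (tendsto_xr (finv l)).eventually h]
    with x hx y hy
  obtain ⟨l, rfl⟩ := hy.exists_finv
  exact hx l

/-- The nonlinear operation. -/
def nu (q : C × C × C × C) : C := xr q.2.2.2 (xr (sh q.2.2.1) (an q.1 q.2.1))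

theorem continuous_nu : Continuous nu := by unfold nu; fun_prop

theorem tendsto_nu : Tendsto nu (residual _) (residual _) := by
  have h := tendsto_invol (θ := fun q : C × C × C × C => (q.1, q.2.1, q.2.2.1, nu q))
    (by have := continuous_nu; fun_prop) (fun q => by simp [nu])
  exact (tendsto_snd'.comp (tendsto_snd'.comp tendsto_snd')).comp h

theorem nu_shift (x b a z : C) (k : ℕ) :
    nu (x, b, xr a (ee k), z) = xr (nu (x, b, a, z)) (ee (k + 1)) := by
  funext n
  cases n with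
  | zero => simp [nu, xr, sh, ee]
  | succ n =>
    simp only [nu, xr, sh, ee, Nat.add_right_cancel_iff]
    cases z (n + 1) <;> cases a n <;> cases decide (n = k) <;> simp

theorem nu_mul (x b a z : C) (k : ℕ) :
    nu (x, xr b (ee k), a, z) = cond (x k) (xr (nu (x, b, a, z)) (ee k)) (nu (x, b, a, z)) := by
  funext n
  by_cases hn : n = k
  · subst hn
    cases hx : x n <;> simp [nu, xr, an, ee, hx]
  · cases x k <;> simp [nu, xr, an, ee, hn]

/-- Step 1: ternary sums are tracked everywhere. -/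
theorem exists_tri {F : C → C} (hF : Measurable F)
    (h1 : ∀ᶠ p : C × C in residual _, LeT (F (xr p.1 p.2)) (jn (F p.1) (F p.2))) :
    ∃ (m : ℕ) (σ τ : C) (f : List Bool → List Bool) (A : C → Prop), Primrec f ∧
      (∀ᶠ x in residual C, A x) ∧ ∀ x y z, A x → A y → A z → A (xr (xr x y) z) →
        ∀ᶠ h in residual C, Red f (jn (F (ow m σ x)) (jn (F (ow m σ y)) (jn (F (ow m σ z))
          (F (ow m τ h))))) (F (ow m σ (xr (xr x y) z))) := by
  have t1 := tendsto_invol (θ := fun p : C × C => (xr p.1 p.2, p.2)) (by fun_prop) (by simp)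
  have t2 := tendsto_invol (θ := fun p : C × C => (p.2, p.1)) (by fun_prop) (by simp)
  have h2 := t1.eventually h1
  have h3 := t2.eventually h2
  simp only [xr_xr_cancel] at h2 h3
  obtain ⟨⟨f₁, f₂, f₃⟩, V, hVo, ⟨⟨σ, τ⟩, hσ⟩, hV⟩ := loc_cover'
    (p := fun (i : Fn × Fn × Fn) (p : C × C) =>
      Red i.1.1 (jn (F p.1) (F p.2)) (F (xr p.1 p.2)) ∧
      Red i.2.1.1 (jn (F (xr p.1 p.2)) (F p.2)) (F p.1) ∧
      Red i.2.2.1 (jn (F (xr p.1 p.2)) (F p.1)) (F p.2))
    (fun i => bm (Measurable.and (by fun_prop) (Measurable.and (by fun_prop) (by fun_prop))))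
    (by
      filter_upwards [h1, h2, h3] with p a b c
      obtain ⟨f₁, a⟩ := leT_iff.1 a
      obtain ⟨f₂, b⟩ := leT_iff.1 b
      obtain ⟨f₃, c⟩ := leT_iff.1 c
      rw [xr_comm p.2 p.1] at c
      exact ⟨(f₁, f₂, f₃), a, b, c⟩)
  obtain ⟨V₁, hV₁, V₂, hV₂, hsub⟩ := mem_nhds_prod_iff.1 (hVo.mem_nhds hσ)
  obtain ⟨m, hm₁, hm₂⟩ := ((eventually_ow_mem hV₁).and (eventually_ow_mem hV₂)).exists
  let GA : C → C := fun x => F (ow m σ x)
  let GB : C → C := fun x => F (ow m τ x)
  let GC : C → C := fun x => F (ow m (xr σ τ) x)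
  let G : C → C → Prop := fun x h => Red f₁.1 (jn (GA x) (GB h)) (GC (xr x h)) ∧
    Red f₂.1 (jn (GC (xr x h)) (GB h)) (GA x) ∧ Red f₃.1 (jn (GC (xr x h)) (GA x)) (GB h)
  have hG : ∀ᶠ p : C × C in residual _, G p.1 p.2 := by
    have t := tendsto_residual_of_isOpenMap (f := Prod.map (ow m σ) (ow m τ)) (by fun_prop)
      ((isOpenMap_ow m σ).prodMap (isOpenMap_ow m τ))
    filter_upwards [t.eventually hV] with p hp
    have := hp (hsub ⟨hm₁ _, hm₂ _⟩)
    have e : xr (ow m σ p.1) (ow m τ p.2) = ow m (xr σ τ) (xr p.1 p.2) := by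
      funext n; simp only [xr, ow]; split_ifs <;> rfl
    simpa only [Prod.map_fst, Prod.map_snd, e] using this
  let ι := {q : C × C × C × C // G q.1 q.2.2.2 ∧ G q.2.1 (xr (xr q.1 q.2.1) q.2.2.2) ∧
    G q.2.2.1 (xr (xr q.1 q.2.1) q.2.2.2) ∧ G (xr (xr q.1 q.2.1) q.2.2.1) q.2.2.2}
  have hu : URed (fun i : ι => jn (GA i.1.1) (jn (GA i.1.2.1) (jn (GA i.1.2.2.1) (GB i.1.2.2.2))))
      fun i => GA (xr (xr i.1.1 i.1.2.1) i.1.2.2.1) := by
    have ux := uRed_left (fun i : ι => GA i.1.1)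
      fun i => jn (GA i.1.2.1) (jn (GA i.1.2.2.1) (GB i.1.2.2.2))
    have u1 := uRed_right (fun i : ι => GA i.1.1)
      fun i => jn (GA i.1.2.1) (jn (GA i.1.2.2.1) (GB i.1.2.2.2))
    have uy := u1.trans (uRed_left _ _)
    have u2 := u1.trans (uRed_right _ _)
    have uz := u2.trans (uRed_left _ _)
    have uh := u2.trans (uRed_right _ _)
    have s1 := (ux.jn uh).trans ⟨_, f₁.2, fun i => i.2.1.1⟩
    have s2 := (s1.jn uy).trans (D := fun i => GB (xr (xr i.1.1 i.1.2.1) i.1.2.2.2))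
      ⟨_, f₃.2, fun i => by
        have := i.2.2.1.2.2
        have e : xr i.1.2.1 (xr (xr i.1.1 i.1.2.1) i.1.2.2.2) = xr i.1.1 i.1.2.2.2 := by
          funext n; simp only [xr]
          cases i.1.1 n <;> cases i.1.2.1 n <;> simp
        rwa [e] at this⟩
    have s3 := (uz.jn s2).trans ⟨_, f₁.2, fun i => i.2.2.2.1.1⟩
    refine (s3.jn uh).trans ⟨_, f₂.2, fun i => ?_⟩
    have := i.2.2.2.2.2.1
    have e : xr (xr (xr i.1.1 i.1.2.1) i.1.2.2.1) i.1.2.2.2 =
        xr i.1.2.2.1 (xr (xr i.1.1 i.1.2.1) i.1.2.2.2) := by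
      funext n; simp only [xr]
      cases i.1.1 n <;> cases i.1.2.1 n <;> cases i.1.2.2.1 n <;> simp
    rwa [e] at this
  obtain ⟨f, hf, hr⟩ := hu
  refine ⟨m, σ, τ, f, fun x => ∀ᶠ h in residual C, G x h, hf, ku_fwd hG,
    fun x y z ax ay az aw => ?_⟩
  have t := tendsto_xr (xr x y)
  filter_upwards [ax, t.eventually ay, t.eventually az, aw] with h b1 b2 b3 b4
  rw [xr_comm h] at b2 b3
  exact hr ⟨(x, y, z, h), b1, b2, b3, b4⟩

/-- A map invariant under flips beyond `k` is generically constant on a cylinder. -/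
theorem not_flip_invariant {G : C → C} (hG : Measurable G)
    (h4 : ∀ᶠ p : C × C in residual _, G p.1 ≠ G p.2) (k : ℕ) :
    ¬ ∀ j, k ≤ j → ∀ᶠ y in residual C, G y = G (xr y (ee j)) := by
  intro h
  have h1 : ∀ᶠ y in residual C, ∀ j, k ≤ j → G y = G (xr y (ee j)) :=
    eventually_countable_forall.2 fun j => by
      by_cases hj : k ≤ j
      · filter_upwards [h j hj] with y hy _ using hy
      · exact Eventually.of_forall fun y hj' => absurd hj' hj
  have h2 : ∀ᶠ y in residual C, ∀ M σ, (∀ n < k, σ n = y n) → G (ow M σ y) = G y := by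
    filter_upwards [sat h1] with y hy M σ hσ
    induction M with
    | zero => congr 1
    | succ M ih =>
      by_cases hM : σ M = y M
      · rw [← ih]
        congr 1
        funext n
        by_cases hn : n = M
        · simp [ow, hn, hM]
        · have : n < M + 1 ↔ n < M := by omega
          simp [ow, this]
      · have hk : k ≤ M := by
          by_contra hk
          exact hM (hσ M (by omega))
        rw [← ih, hy _ (e0_ow M σ y) M hk]
        congr 1
        funext n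
        by_cases hn : n = M
        · subst hn
          revert hM
          simp only [ow, xr, ee]
          cases σ n <;> cases y n <;> simp
        · have : n < M + 1 ↔ n < M := by omega
          simp [ow, xr, ee, this, hn]
  let U : Set C := {y | Pre (pre (fun _ => false) k) y}
  have hU : ∀ y ∈ U, ∀ n < k, y n = false := fun y hy n hn =>
    hy n _ (by rw [getElem?_pre, if_pos hn])
  have h3 : ∀ n, ∃ b, ∀ᶠ y in residual C, y ∈ U → G y n = b := by
    intro n
    obtain ⟨b, V, hVo, ⟨σ, hσ⟩, hVU, hV⟩ := loc_cover (p := fun b y => G y n = b)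
      (fun b => bm (measurable_eq_bool (by fun_prop) b)) (isOpen_Pre _) (exists_Pre _)
      (U := U) (Eventually.of_forall fun y _ => ⟨_, rfl⟩)
    obtain ⟨M, hM⟩ := (eventually_ow_mem (hVo.mem_nhds hσ)).exists
    refine ⟨b, ?_⟩
    filter_upwards [(tendsto_ow M σ).eventually hV, h2] with y h5 h6 hy
    rw [← h6 M σ fun n hn => by rw [hU σ (hVU hσ) n hn, hU y hy n hn]]
    exact h5 (hM y)
  choose b hb using h3
  have h5 := eventually_countable_forall.2 hb
  obtain ⟨p, hp, h6, h7, h8⟩ := exists_of_residual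
    (h4.and ((tendsto_fst'.eventually h5).and (tendsto_snd'.eventually h5)))
    ((isOpen_Pre _).prod (isOpen_Pre _) : IsOpen (U ×ˢ U)) 
    (Set.Nonempty.prod (exists_Pre _) (exists_Pre _))
  exact h6 (funext fun n => (h7 n hp.1).trans (h8 n hp.2).symm)

/-- The join of the values on a quadruple. -/
def jn4 (G : C → C) (q : C × C × C × C) : C :=
  jn (G q.1) (jn (G q.2.1) (jn (G q.2.2.1) (G q.2.2.2)))

/-- Quadruples extending given initial segments. -/
def box (m : ℕ) (σ : C × C × C × C) : Set (C × C × C × C) :=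
  {q | Pre (pre σ.1 m) q.1 ∧ Pre (pre σ.2.1 m) q.2.1 ∧ Pre (pre σ.2.2.1 m) q.2.2.1 ∧
    Pre (pre σ.2.2.2 m) q.2.2.2}

theorem pre_iff {σ x : C} {m : ℕ} : Pre (pre σ m) x ↔ ∀ n < m, x n = σ n := by
  refine ⟨fun h n hn => h n _ (by rw [getElem?_pre, if_pos hn]), fun h n b hb => ?_⟩
  rw [getElem?_pre] at hb
  split_ifs at hb with hn
  rw [h n hn]
  simpa using hb

theorem Pre.flip {σ x : C} {m k : ℕ} (h : Pre (pre σ m) x) (hk : m ≤ k) :
    Pre (pre σ m) (xr x (ee k)) := by
  rw [pre_iff] at h ⊢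
  intro n hn
  have : n ≠ k := by omega
  simp [xr, ee, this, h n hn]

theorem isOpen_box (m : ℕ) (σ : C × C × C × C) : IsOpen (box m σ) :=
  (isOpen_Pre _).prod ((isOpen_Pre _).prod ((isOpen_Pre _).prod (isOpen_Pre _)))

theorem mem_box (m : ℕ) (σ : C × C × C × C) : σ ∈ box m σ :=
  ⟨pre_Pre _ _, pre_Pre _ _, pre_Pre _ _, pre_Pre _ _⟩

theorem exists_box {σ : C × C × C × C} {V : Set (C × C × C × C)} (hV : V ∈ 𝓝 σ) :
    ∃ m, box m σ ⊆ V := by
  obtain ⟨V₁, h₁, W₁, k₁, s₁⟩ := mem_nhds_prod_iff.1 hV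
  obtain ⟨V₂, h₂, W₂, k₂, s₂⟩ := mem_nhds_prod_iff.1 k₁
  obtain ⟨V₃, h₃, V₄, h₄, s₃⟩ := mem_nhds_prod_iff.1 k₂
  obtain ⟨m, m₁, m₂, m₃, m₄⟩ :=
    ((exists_cyl h₁).and ((exists_cyl h₂).and ((exists_cyl h₃).and (exists_cyl h₄)))).exists
  exact ⟨m, fun q hq => s₁ ⟨m₁ _ (pre_iff.1 hq.1), s₂ ⟨m₂ _ (pre_iff.1 hq.2.1),
    s₃ ⟨m₃ _ (pre_iff.1 hq.2.2.1), m₄ _ (pre_iff.1 hq.2.2.2)⟩⟩⟩⟩

/-- The argument once ternary sums are tracked. -/
theorem core_aux {G H : C → C} (hG : Measurable G) {f : List Bool → List Bool} (hf : Primrec f)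
    {A : C → Prop} (hA : ∀ᶠ x in residual C, A x)
    (htri : ∀ x y z, A x → A y → A z → A (xr (xr x y) z) →
      ∀ᶠ h in residual C, Red f (jn (G x) (jn (G y) (jn (G z) (H h)))) (G (xr (xr x y) z)))
    (hν : ∀ᶠ q in residual _, LeT (G (nu q)) (jn4 G q))
    (hfin : ∀ᶠ x in residual C, ∀ y, E0 y x → LeT (G y) (G x))
    (h4 : ∀ᶠ p : C × C in residual _, G p.1 ≠ G p.2) :
    ∃ m σ, ∀ᶠ q in residual _, q ∈ box m σ → ∀ᶠ h in residual C,
      LeT q.1 (jn (jn4 G q) (H h)) := by
  obtain ⟨φ, V, hVo, ⟨σ, hσ⟩, hV⟩ := loc_cover'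
    (p := fun (i : Fn) q => Red i.1 (jn4 G q) (G (nu q)))
    (fun i => bm (measurable_Red _ (by unfold jn4; fun_prop) (hG.comp continuous_nu.measurable)))
    (by filter_upwards [hν] with q hq using leT_iff.1 hq)
  obtain ⟨m, hm⟩ := exists_box (hVo.mem_nhds hσ)
  have hA' := sat hA
  have hVa : ∀ᶠ q : C × C × C × C in residual _, q ∈ box m σ → ∀ k, m ≤ k →
      Red φ.1 (jn4 G (q.1, q.2.1, xr q.2.2.1 (ee k), q.2.2.2)) (G (xr (nu q) (ee (k + 1)))) := by
    filter_upwards [eventually_countable_forall.2 fun k => (tendsto_invol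
      (θ := fun q : C × C × C × C => (q.1, q.2.1, xr q.2.2.1 (ee k), q.2.2.2)) (by fun_prop)
      (by simp)).eventually hV] with q hq hb k hk
    have := hq k (hm ⟨hb.1, hb.2.1, hb.2.2.1.flip hk, hb.2.2.2⟩)
    rwa [nu_shift] at this
  have hVb : ∀ᶠ q : C × C × C × C in residual _, q ∈ box m σ → ∀ k, m ≤ k →
      Red φ.1 (jn4 G (q.1, xr q.2.1 (ee k), q.2.2.1, q.2.2.2))
        (cond (q.1 k) (G (xr (nu q) (ee k))) (G (nu q))) := by
    filter_upwards [eventually_countable_forall.2 fun k => (tendsto_invol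
      (θ := fun q : C × C × C × C => (q.1, xr q.2.1 (ee k), q.2.2.1, q.2.2.2)) (by fun_prop)
      (by simp)).eventually hV] with q hq hb k hk
    have := hq k (hm ⟨hb.1, hb.2.1.flip hk, hb.2.2.1, hb.2.2.2⟩)
    rw [nu_mul] at this
    cases hx : q.1 k <;> simpa [hx] using this
  have ta : Tendsto (fun q : C × C × C × C => q.2.2.1) (residual _) (residual _) :=
    tendsto_fst'.comp (tendsto_snd'.comp tendsto_snd')
  have tb : Tendsto (fun q : C × C × C × C => q.2.1) (residual _) (residual _) :=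
    tendsto_fst'.comp tendsto_snd'
  have da : ∀ k, (¬ ∀ᶠ y in residual C, G y ≠ G (xr y (ee k))) →
      ∀ᶠ z in residual C, G z = G (xr z (ee k)) := by
    intro k hk
    obtain ⟨y, hy, hyA⟩ := ((not_eventually.1 hk).and_eventually hA').exists
    have hy' : G y = G (xr y (ee k)) := by simpa using hy
    filter_upwards [hA'] with z hz
    have e1 : xr (xr z y) (xr y (ee k)) = xr z (ee k) := by
      funext n; simp only [xr]; cases z n <;> cases y n <;> simp
    obtain ⟨h, r1, r2⟩ := exists_of_residual' ((htri z y y (hz _ (E0.refl _)) (hyA _ (E0.refl _))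
      (hyA _ (E0.refl _)) (by rw [xr_xr_cancel]; exact hz _ (E0.refl _))).and
      (htri z y (xr y (ee k)) (hz _ (E0.refl _)) (hyA _ (E0.refl _)) (hyA _ (e0_ee _ _))
        (by rw [e1]; exact hz _ (e0_ee _ _))))
    rw [xr_xr_cancel] at r1
    rw [e1, ← hy'] at r2
    exact r1.unique r2
  have db : ∀ k, m ≤ k → (∀ᶠ z in residual C, G z = G (xr z (ee k))) →
      ∀ᶠ z in residual C, G z = G (xr z (ee (k + 1))) := by
    intro k hk h
    refine da _ fun hn => ?_
    obtain ⟨q, hq, h1, h2, h3, h5⟩ := exists_of_residual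
      (hV.and (hVa.and ((ta.eventually h).and (tendsto_nu.eventually hn)))) (isOpen_box m σ)
      ⟨σ, mem_box m σ⟩
    have r := h2 hq k hk
    simp only [jn4, ← h3] at r
    exact h5 ((h1 (hm hq)).unique r)
  have hne : ∀ᶠ y in residual C, ∀ i, G y ≠ G (xr y (ee (m + i))) := by
    refine eventually_countable_forall.2 fun i => ?_
    by_contra hn
    refine not_flip_invariant hG h4 (m + i) fun j hj => ?_
    induction j, hj using Nat.le_induction with
    | base => exact da _ hn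
    | succ j hj ih => exact db j (by omega) ih
  refine ⟨m, σ, ?_⟩
  filter_upwards [hV, hVa, hVb, ta.eventually hA', tb.eventually hA', tendsto_nu.eventually hA',
    tendsto_nu.eventually hne, ta.eventually hfin] with ⟨x, b, a, z⟩ r0 ra rb Aa Ab Aν hd hfa hq
  replace r0 := r0 (hm hq)
  replace ra := ra hq
  replace rb := rb hq
  simp only at ra rb Aa Ab hfa ⊢
  set ν := nu (x, b, a, z)
  have e1 : ∀ k, xr (xr a (xr ν (ee k))) ν = xr a (ee k) := fun k => by
    funext n; simp only [xr]; cases a n <;> cases ν n <;> simp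
  have e2 : ∀ w k, xr (xr w a) (xr a (ee k)) = xr w (ee k) := fun w k => by
    funext n; simp only [xr]; cases a n <;> cases w n <;> simp
  have t1 := eventually_countable_forall.2 fun k => htri a (xr ν (ee k)) ν (Aa _ (E0.refl _))
    (Aν _ (e0_ee _ _)) (Aν _ (E0.refl _)) (by rw [e1]; exact Aa _ (e0_ee _ _))
  have t2 := eventually_countable_forall.2 fun k => htri b a (xr a (ee k)) (Ab _ (E0.refl _))
    (Aa _ (E0.refl _)) (Aa _ (e0_ee _ _)) (by rw [e2]; exact Ab _ (e0_ee _ _))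
  have t3 := eventually_countable_forall.2 fun k => htri ν a (xr a (ee k)) (Aν _ (E0.refl _))
    (Aa _ (E0.refl _)) (Aa _ (e0_ee _ _)) (by rw [e2]; exact Aν _ (e0_ee _ _))
  filter_upwards [t1, t2, t3] with h s1 s2 s3
  simp only [e1, e2] at s1 s2 s3
  set O := jn (jn4 G (x, b, a, z)) (H h)
  have o4 : LeT (jn4 G (x, b, a, z)) O := le_jn_left _ _
  have oh : LeT (H h) O := le_jn_right _ _
  have ox : LeT (G x) O := (le_jn_left _ _).trans o4
  have ob : LeT (G b) O := ((le_jn_left _ _).right _).trans o4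
  have oa : LeT (G a) O := (((le_jn_left _ _).right _).right _).trans o4
  have oz : LeT (G z) O := (((le_jn_right _ _).right _).right _).trans o4
  have oν : LeT (G ν) O := LeT.trans ⟨_, φ.2, r0⟩ o4
  have hc : USeq O fun i => G (xr a (ee (m + i))) := by
    refine USeq.rec ((hfa _ (e0_ee _ _)).trans oa) ?_
    have uO := uRed_left (fun _ : ℕ => O) fun i => G (xr a (ee (m + i)))
    have uc := uRed_right (fun _ : ℕ => O) fun i => G (xr a (ee (m + i)))
    have u1 := ((uO.trans (ox.uRed ℕ)).jn ((uO.trans (ob.uRed ℕ)).jn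
      (uc.jn (uO.trans (oz.uRed ℕ))))).trans ⟨_, φ.2, fun i => ra (m + i) (by omega)⟩
    exact ((uO.trans (oa.uRed ℕ)).jn (u1.jn ((uO.trans (oν.uRed ℕ)).jn
      (uO.trans (oh.uRed ℕ))))).trans ⟨_, hf, fun i => s1 (m + i + 1)⟩
  have hb : USeq O fun i => G (xr b (ee (m + i))) :=
    ((USeq.const ob).jn ((USeq.const oa).jn (hc.jn (USeq.const oh)))).app
      ⟨_, hf, fun i => s2 (m + i)⟩
  have hv : USeq O fun i => G (xr ν (ee (m + i))) :=
    ((USeq.const oν).jn ((USeq.const oa).jn (hc.jn (USeq.const oh)))).app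
      ⟨_, hf, fun i => s3 (m + i)⟩
  have hw : USeq O fun i => cond (x (m + i)) (G (xr ν (ee (m + i)))) (G ν) :=
    ((USeq.const ox).jn (hb.jn ((USeq.const oa).jn (USeq.const oz)))).app
      ⟨_, φ.2, fun i => rb (m + i) (by omega)⟩
  have hx := USeq.decide (x := fun i => x (m + i)) (USeq.const oν) hv hw hd fun _ => rfl
  have hx' : LeT (fun n => x (m + (n - m))) fun i => x (m + i) :=
    leT_tt (a := fun n => n - m) (b := fun n => n) (g := fun _ p => p.1)
      (Primrec.nat_sub.comp Primrec.id (Primrec.const m)) Primrec.id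
      (Primrec.fst.comp Primrec.snd).to₂ fun _ => rfl
  refine (leT_of_eventually_eq m fun n hn => ?_).trans (hx'.trans hx)
  congr 1
  omega

theorem core {F : C → C} (hF : Measurable F)
    (h1 : ∀ᶠ p : C × C in residual _, LeT (F (xr p.1 p.2)) (jn (F p.1) (F p.2)))
    (hν : ∀ᶠ q in residual _, LeT (F (nu q)) (jn4 F q))
    (hfin : ∀ᶠ x in residual C, ∀ y, E0 y x → EqT (F y) (F x))
    (h4 : ∀ᶠ p : C × C in residual _, ¬ EqT (F p.1) (F p.2)) :
    ∀ᶠ q : C × C × C × C in residual _, ∀ᶠ h in residual C, LeT q.1 (jn (jn4 F q) (F h)) := by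
  obtain ⟨m, σ, τ, f, A, hf, hA, htri⟩ := exists_tri hF h1
  have tx : Tendsto (fun q : C × C × C × C => q.1) (residual _) (residual _) := tendsto_fst'
  have tb : Tendsto (fun q : C × C × C × C => q.2.1) (residual _) (residual _) :=
    tendsto_fst'.comp tendsto_snd'
  have ta : Tendsto (fun q : C × C × C × C => q.2.2.1) (residual _) (residual _) :=
    tendsto_fst'.comp (tendsto_snd'.comp tendsto_snd')
  have tz : Tendsto (fun q : C × C × C × C => q.2.2.2) (residual _) (residual _) :=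
    tendsto_snd'.comp (tendsto_snd'.comp tendsto_snd')
  obtain ⟨m', σ', h⟩ := core_aux (G := fun x => F (ow m σ x)) (H := fun x => F (ow m τ x))
    (hF.comp (by fun_prop)) hf hA htri
    (by
      filter_upwards [hν, tendsto_nu.eventually hfin, tx.eventually hfin, tb.eventually hfin,
        ta.eventually hfin, tz.eventually hfin] with q a b c₁ c₂ c₃ c₄
      exact (b _ (e0_ow _ _ _)).1.trans (a.trans ((c₁ _ (e0_ow _ _ _)).jn ((c₂ _ (e0_ow _ _ _)).jn
        ((c₃ _ (e0_ow _ _ _)).jn (c₄ _ (e0_ow _ _ _))))).2))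
    (by
      filter_upwards [hfin] with x hx y hy
      exact (hx _ ((e0_ow _ _ _).trans hy)).1.trans (hx _ (e0_ow _ _ _)).2)
    (by
      filter_upwards [h4, tendsto_fst'.eventually hfin, tendsto_snd'.eventually hfin]
        with p a b c he
      exact a ((b _ (e0_ow m σ _)).symm.trans (he ▸ c _ (e0_ow m σ _))))
  have t := tendsto_residual_of_isOpenMap
    (f := Prod.map (ow m' σ'.1) (Prod.map (ow m' σ'.2.1) (Prod.map (ow m' σ'.2.2.1)
      (ow m' σ'.2.2.2)))) (by fun_prop)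
    ((isOpenMap_ow _ _).prodMap ((isOpenMap_ow _ _).prodMap ((isOpenMap_ow _ _).prodMap
      (isOpenMap_ow _ _))))
  have hw : ∀ s x : C, Pre (pre s m') (ow m' s x) := fun s x =>
    pre_iff.2 fun n hn => by simp [ow, hn]
  filter_upwards [t.eventually h, tx.eventually hfin, tb.eventually hfin, ta.eventually hfin,
    tz.eventually hfin] with q a c₁ c₂ c₃ c₄
  filter_upwards [a ⟨hw _ _, hw _ _, hw _ _, hw _ _⟩, hfin] with h b c
  have e : ∀ s x, E0 (ow m σ (ow m' s x)) x := fun s x => (e0_ow _ _ _).trans (e0_ow _ _ _)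
  exact (ow_eqT _ _ _).2.trans (b.trans (((c₁ _ (e _ _)).jn ((c₂ _ (e _ _)).jn
    ((c₃ _ (e _ _)).jn (c₄ _ (e _ _))))).jn (c _ (e0_ow _ _ _))).1)

end Vale.Agent.P327
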