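import Vale.Agent.P327.Meas

/-!
Basic facts about generic points.
-/

namespace Vale.Agent.P327

open Filter Set Topology Encodable

theorem generic_le {X Y : C} (h : ¬ LeT Y X) : ∀ᶠ g in residual C, ¬ LeT Y (jn X g) := by
  simp only [leT_iff (x := jn X _), not_exists]
  rw [eventually_countable_forall]
  intro F
  by_contra hn
  obtain ⟨U, ho, ⟨σ, hσ⟩, hU⟩ := loc (p := fun g => Red F.1 (jn X g) Y) (bm (by fun_prop)) hn
  obtain ⟨m, hm⟩ := (exists_cyl (ho.mem_nhds hσ)).exists
  have hext : ∀ t : List Bool, ∃ g, Pre (pre σ m ++ t) g ∧ Red F.1 (jn X g) Y := by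
    intro t
    obtain ⟨g, hg, hg'⟩ := exists_of_residual hU (isOpen_Pre (pre σ m ++ t)) (exists_Pre _)
    refine ⟨g, hg, hg' (hm g fun n hn => hg n _ ?_)⟩
    rw [List.getElem?_append_left (by simpa using hn), getElem?_pre, if_pos hn]
  refine h (LeT.of_bits (ψ := fun ξ n => ((List.range ξ.length).filterMap fun i =>
    (F.1 (il ξ (pre σ m ++ (decode (α := List Bool) i).getD [])))[n]?).head?) ?_ ⟨?_, ?_⟩)
  · refine Primrec.list_head?.comp (Primrec.listFilterMap
      (Primrec.list_range.comp (Primrec.list_length.comp Primrec.fst)) ?_)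
    exact (Primrec.list_getElem?.comp (F.2.comp (il_primrec.comp (Primrec.fst.comp Primrec.fst)
      (Primrec.list_append.comp (Primrec.const _) (Primrec.option_getD.comp
        (Primrec.decode.comp Primrec.snd) (Primrec.const []))))) (Primrec.snd.comp Primrec.fst)).to₂
  · intro ξ n b hξ hb
    have := List.mem_of_mem_head? hb
    simp only [List.mem_filterMap] at this
    obtain ⟨i, -, hi⟩ := this
    obtain ⟨g, hg, hr⟩ := hext ((decode (α := List Bool) i).getD [])
    exact hr.1 _ (hξ.il hg) _ _ hi
  · intro n
    obtain ⟨g, hg, hr⟩ := hext []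
    obtain ⟨k, hk⟩ := hr.bit n
    let t : List Bool := (List.range k).map fun j => g (m + j)
    have ht : Pre (pre σ m ++ t) g := by
      intro i b hb
      by_cases hi : i < m
      · refine hg i b ?_
        rw [List.getElem?_append_left (by simpa using hi)] at hb
        simpa using hb
      · rw [List.getElem?_append_right (by simpa using hi)] at hb
        simp only [t, length_pre, List.getElem?_map, Option.map_eq_some_iff] at hb
        obtain ⟨j, hj, rfl⟩ := hb
        obtain ⟨_, hj'⟩ := List.getElem?_eq_some_iff.1 hj
        simp only [List.getElem_range] at hj'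
        congr 1
        omega
    refine ⟨max k (encode t + 1), fun ξ hξ hle => ?_⟩
    have h1 := hk _ (hξ.il ht) (le_length_il (by omega) (by simp [t]))
    beta_reduce
    rw [List.isSome_head?]
    refine List.ne_nil_of_mem (a := Y n) ?_
    simp only [List.mem_filterMap, List.mem_range]
    exact ⟨encode t, by omega, by simpa using h1⟩

theorem generic_meet (X V : C) :
    ∀ᶠ g in residual C, ∀ Y, LeT Y V → LeT Y (jn X g) → LeT Y X := by
  have h : ∀ F : Fn, ∀ᶠ g in residual C, LeT (out F.1 V) (jn X g) → LeT (out F.1 V) X := by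
    intro F
    by_cases h : LeT (out F.1 V) X
    · exact Eventually.of_forall fun _ _ => h
    · filter_upwards [generic_le h] with g hg hg' using absurd hg' hg
  filter_upwards [eventually_countable_forall.2 h] with g hg Y h1 h2
  obtain ⟨F, rfl⟩ := h1.exists_out
  exact hg F h2

theorem generic_meet' {X V : C} (h : LeT X V) : ∀ᶠ g in residual C, Meet (jn X g) V X := by
  filter_upwards [generic_meet X V] with g hg
  exact ⟨le_jn_left _ _, h, fun Y h1 h2 => hg Y h2 h1⟩

theorem ow_xr_ee {m j : ℕ} (h : m ≤ j) (σ x : C) :
    ow m σ (xr x (ee j)) = xr (ow m σ x) (ee j) := by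
  funext n
  simp only [ow, xr, ee]
  split_ifs with hn
  · have : n ≠ j := by omega
    simp [this]
  · rfl

theorem flip_meagre {p : C → Prop} (hp : Measurable p)
    (h : ∀ m, ∃ j, m ≤ j ∧ ∀ x, p x → ¬ p (xr x (ee j))) : ∀ᶠ x in residual C, ¬ p x := by
  by_contra hn
  obtain ⟨U, ho, hne, hU⟩ := loc (bm hp) hn
  obtain ⟨σ, hσ⟩ := locC ho hne hU
  obtain ⟨m, hm⟩ := hσ.exists
  obtain ⟨j, hj, hf⟩ := h m
  obtain ⟨x, h1, h2⟩ := exists_of_residual' (hm.and ((tendsto_xr (ee j)).eventually hm))
  rw [ow_xr_ee hj] at h2
  exact hf _ h1 h2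

theorem xr_ee_ne (x : C) (j : ℕ) : x ≠ xr x (ee j) := by
  intro h
  have := congrFun h j
  simp [xr, ee] at this

theorem generic_not_le : ∀ᶠ p : C × C in residual _, ¬ LeT p.2 p.1 := by
  refine ku_bwd (bm (Measurable.not (by fun_prop))) (Eventually.of_forall fun y => ?_)
  simp only [leT_iff, not_exists]
  rw [eventually_countable_forall]
  intro F
  refine flip_meagre (by fun_prop) fun m => ⟨m, le_rfl, fun x h1 h2 => ?_⟩
  exact xr_ee_ne x m (h1.unique h2)

/-- Keep the columns of `A` whose index lies in `Z`. -/
def gz (Z A : C) : C := fun n => Z n.unpair.1 && A n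

theorem gz_le (Z A : C) : LeT (gz Z A) (jn Z A) :=
  leT_tt (a := fun n => 2 * n.unpair.1) (b := fun n => 2 * n + 1) (g := fun _ p => p.1 && p.2)
    (Primrec.nat_double.comp (Primrec.fst.comp Primrec.unpair)) Primrec.nat_double_succ
    ((Primrec.dom_finite fun p : Bool × Bool => p.1 && p.2).comp Primrec.snd).to₂
    (by simp [gz])

@[fun_prop] theorem measurable_gz {α : Type*} [MeasurableSpace α] {f g : α → C}
    (hf : Measurable f) (hg : Measurable g) : Measurable fun a => gz (f a) (g a) :=
  measurable_pi_lambda _ fun n => measurable_bool₂ and ((measurable_pi_apply _).comp hf)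
    ((measurable_pi_apply n).comp hg)

theorem exists_code₁ :
    ∃ A : C, ∀ᶠ Z in residual C, ∀ i, LeT (col A i) (gz Z A) ↔ Z i = true := by
  refine exists_of_residual' (ku_swap (p := fun Z A : C => ∀ i, LeT (col A i) (gz Z A) ↔ Z i = true)
    (bm (Measurable.forall fun i => Measurable.iff (by fun_prop)
      (measurable_eq_bool (by fun_prop) _))) (Eventually.of_forall fun Z => ?_))
  rw [eventually_countable_forall]
  intro i
  cases hZ : Z i
  · simp only [leT_iff, Bool.false_eq_true, iff_false, not_exists]
    rw [eventually_countable_forall]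
    intro F
    refine flip_meagre (by fun_prop) fun m => ⟨Nat.pair i m, Nat.right_le_pair _ _,
      fun x h1 h2 => ?_⟩
    have e : gz Z (xr x (ee (Nat.pair i m))) = gz Z x := by
      funext n
      by_cases hn : n = Nat.pair i m
      · simp [gz, hn, hZ]
      · simp [gz, xr, ee, hn]
    rw [e] at h2
    have := congrFun (h1.unique h2) m
    simp [col, xr, ee] at this
  · refine Eventually.of_forall fun A => ⟨fun _ => rfl, fun _ => ?_⟩
    have e : col A i = col (gz Z A) i := by
      funext n; simp [col, gz, hZ]
    rw [e]
    exact col_le _ _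

theorem exists_code₂ :
    ∃ A : C, ∀ᶠ b in residual C, ∀ n, Meet (jn (col A n) (xr b A)) b (col b n) := by
  refine exists_of_residual' (ku_swap
    (p := fun b A : C => ∀ n, Meet (jn (col A n) (xr b A)) b (col b n))
    (bm (Measurable.forall fun i => by fun_prop)) (Eventually.of_forall fun b => ?_))
  rw [eventually_countable_forall]
  intro n
  filter_upwards [(tendsto_xr b).eventually (generic_meet' (col_le b n))] with A hA
  refine hA.congr ⟨?_, ?_⟩ (EqT.refl _) (EqT.refl _)
  · rw [xr_comm A b]
    refine LeT.jn ?_ (le_jn_right _ _)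
    have e : col b n = xr (col A n) (col (xr b A) n) := by
      funext k; simp [xr, col]; cases A (Nat.pair n k) <;> simp
    rw [e]
    exact (le_jn_left _ _).xr ((le_jn_right _ _).col n)
  · rw [xr_comm A b]
    refine LeT.jn ?_ (le_jn_right _ _)
    have e : col A n = xr (col b n) (col (xr b A) n) := by
      funext k; simp [xr, col]
    rw [e]
    exact (le_jn_left _ _).xr ((le_jn_right _ _).col n)

theorem code₃ (H : C) : ∀ᶠ b in residual C, ∀ n, Meet (jn (col b n) (xr b H)) H (col H n) := by
  rw [eventually_countable_forall]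
  intro n
  filter_upwards [(tendsto_xr H).eventually (generic_meet' (col_le H n))] with b hb
  refine hb.congr ⟨?_, ?_⟩ (EqT.refl _) (EqT.refl _)
  · refine LeT.jn ?_ (le_jn_right _ _)
    have e : col H n = xr (col b n) (col (xr b H) n) := by
      funext k; simp [xr, col]
    rw [e]
    exact (le_jn_left _ _).xr ((le_jn_right _ _).col n)
  · refine LeT.jn ?_ (le_jn_right _ _)
    have e : col b n = xr (col H n) (col (xr b H) n) := by
      funext k; simp [xr, col]; cases H (Nat.pair n k) <;> simp
    rw [e]
    exact (le_jn_left _ _).xr ((le_jn_right _ _).col n)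

/-- Labels along the path `Z` in the labelled tree `K`. -/
def lab (K Z : C) : C := fun n => K (encode (pre Z (n + 1)))

theorem lab_le (K Z : C) : LeT (lab K Z) (jn Z K) := by
  refine LeT.of_bits (ψ := fun l n => if 2 * (n + 1) ≤ l.length then
    l[2 * encode ((List.range (n + 1)).map fun i => l.getD (2 * i) false) + 1]? else none)
    ?_ ⟨?_, ?_⟩
  · refine Primrec.ite (Primrec.nat_le.comp (Primrec.nat_double.comp (Primrec.succ.comp Primrec.snd))
      (Primrec.list_length.comp Primrec.fst)) ?_ (Primrec.const _)
    refine Primrec.list_getElem?.comp Primrec.fst (Primrec.nat_double_succ.comp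
      (Primrec.encode.comp (Primrec.list_map
        (Primrec.list_range.comp (Primrec.succ.comp Primrec.snd)) ?_)))
    exact ((Primrec.list_getD false).comp (Primrec.fst.comp Primrec.fst)
      (Primrec.nat_double.comp Primrec.snd)).to₂
  all_goals
    have key : ∀ l n, Pre l (jn Z K) → 2 * (n + 1) ≤ l.length →
        ((List.range (n + 1)).map fun i => l.getD (2 * i) false) = pre Z (n + 1) := by
      intro l n hl hle
      refine List.map_congr_left fun i hi => ?_
      rw [List.mem_range] at hi
      rw [List.getD_eq_getElem?_getD, hl.get (by omega)]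
      simp
  · intro l n b hl hb
    beta_reduce at hb
    split_ifs at hb with hle
    rw [key l n hl hle] at hb
    simpa [lab] using hl _ _ hb
  · intro n
    refine ⟨max (2 * (n + 1)) (2 * encode (pre Z (n + 1)) + 2), fun l hl hle => ?_⟩
    beta_reduce
    rw [if_pos (by omega), key l n hl (by omega), hl.get (by omega)]
    rfl

theorem continuous_encode_pre (k : ℕ) : Continuous fun Z : C => encode (pre Z k) := by
  induction k with
  | zero => exact continuous_const
  | succ k ih =>
    have := (continuous_of_discreteTopology (f := fun p : ℕ × Bool =>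
      encode ((decode (α := List Bool) p.1).getD [] ++ [p.2]))).comp
      (ih.prodMk (continuous_apply (A := fun _ : ℕ => Bool) k))
    convert this using 2 with Z
    simp [pre, List.range_succ]

theorem continuous_lab : Continuous fun p : C × C => lab p.1 p.2 := by
  refine continuous_pi fun n => ?_
  have h1 : Continuous fun q : C × ℕ => q.1 q.2 :=
    continuous_prod_of_discrete_right.2 fun j => continuous_apply (A := fun _ : ℕ => Bool) j
  exact h1.comp (continuous_fst.prodMk ((continuous_encode_pre (n + 1)).comp continuous_snd))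

theorem split_open (ε : Bool) {O : Set C} (ho : IsOpen O) (hd : Dense O) :
    ∀ᶠ K in residual C, ∀ Z, xr (lab K Z) (an (fun _ => ε) Z) ∈ O := by
  refine residual_of_dense_open (s := {K | ∀ Z, xr (lab K Z) (an (fun _ => ε) Z) ∈ O}) ?_ ?_
  · have hc : IsClosed {p : C × C | xr (lab p.1 p.2) (an (fun _ => ε) p.2) ∉ O} :=
      ho.isClosed_compl.preimage (continuous_xr continuous_lab (by fun_prop))
    convert (isClosedMap_fst_of_compactSpace _ hc).isOpen_compl
    ext K
    simp
  · rw [dense_iff_inter_open]
    rintro W hW ⟨K0, hK0⟩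
    obtain ⟨m, hm⟩ := (exists_cyl (hW.mem_nhds hK0)).exists
    have hx : ∀ s : List Bool, ∃ x ∈ O, Pre s x := fun s => by
      obtain ⟨x, h1, h2⟩ := hd.inter_open_nonempty _ (isOpen_Pre s) (exists_Pre s)
      exact ⟨x, h2, h1⟩
    choose x hxO hxs using hx
    let a : List Bool → List Bool := fun t => (List.range m).map fun n =>
      xor (K0 (encode (t.take (n + 1)))) (ε && t.getD n false)
    let K : C := fun c =>
      let t := (decode (α := List Bool) c).getD []
      if m < t.length ∧ m ≤ c then
        xor (x (a t) (t.length - 1)) (ε && t.getD (t.length - 1) false) else K0 c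
    refine ⟨K, hm K fun n hn => ?_, fun Z => ?_⟩
    · simp only [K]
      rw [if_neg (by omega)]
    · have ha : ∀ k, m ≤ k → a (pre Z k) = a (pre Z m) := by
        intro k hk
        refine List.map_congr_left fun n hn => ?_
        rw [List.mem_range] at hn
        simp only [List.getD_eq_getElem?_getD, getElem?_pre, if_pos hn,
          if_pos (show n < k by omega)]
        simp only [pre, ← List.map_take, List.take_range]
        rw [min_eq_left (by omega), min_eq_left (by omega)]
      convert hxO (a (pre Z m))
      funext n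
      by_cases hn : n < m
      · refine (hxs (a (pre Z m)) n _ ?_).symm
        simp only [a, List.getElem?_map, List.getElem?_range hn, Option.map_some, xr, lab, an, K,
          encodek, Option.getD_some, length_pre]
        rw [if_neg (by omega)]
        simp only [List.getD_eq_getElem?_getD, getElem?_pre, if_pos hn]
        simp only [pre, ← List.map_take, List.take_range]
        rw [min_eq_left (by omega)]
        rfl
      · have h1 := length_le_encode (pre Z (n + 1))
        simp only [length_pre] at h1
        simp only [xr, lab, an, K, encodek, Option.getD_some, length_pre]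
        rw [if_pos (by omega), ha _ (by omega)]
        rw [List.getD_eq_getElem?_getD, getElem?_pre, if_pos (by omega)]
        simp

theorem split {D : C → Prop} (hD : ∀ᶠ x in residual C, D x) :
    ∃ K : C, ∀ Z, ∃ Z₁, D Z₁ ∧ D (xr Z₁ Z) ∧ LeT Z₁ (jn Z K) := by
  obtain ⟨S, ho, hd, hc, hs⟩ := mem_residual_iff.1 hD
  have h : ∀ᶠ K in residual C, ∀ ε : Bool, ∀ O ∈ S, ∀ Z,
      xr (lab K Z) (an (fun _ => ε) Z) ∈ O := by
    rw [eventually_countable_forall]
    intro ε
    rw [eventually_countable_ball hc]
    exact fun O hO => split_open ε (ho O hO) (hd O hO)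
  obtain ⟨K, hK⟩ := exists_of_residual' h
  refine ⟨K, fun Z => ⟨lab K Z, ?_, ?_, lab_le K Z⟩⟩
  · have : D _ := hs (mem_sInter.2 fun O hO => hK false O hO Z)
    convert this
    funext n; simp [xr, an]
  · have : D _ := hs (mem_sInter.2 fun O hO => hK true O hO Z)
    convert this
    funext n; simp [an]

end Vale.Agent.P327
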