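import Vale.Agent.P327.Core
import Vale.Agent.P327.Bridge

/-!
Rigidity of the Turing degrees.
-/

namespace Vale.Agent.P327

open Filter Set Topology

theorem gen_update (i : ℕ) {p : Om → Prop} (hp : Measurable p)
    (h : ∀ᶠ g in residual Om, ∀ᶠ c in residual C, p (Function.update g i c)) :
    ∀ᶠ g in residual Om, p g := by
  have hc : Continuous fun q : Om × C => Function.update q.1 i q.2 :=
    continuous_fst.update i continuous_snd
  refine push (f := fun q : Om × C => Function.update q.1 i q.2) hc ?_ ?_ (bm hp)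
    (ku_bwd (bm (hp.comp hc.measurable)) h)
  · refine IsOpenMap.of_sections fun q => ⟨fun g => (Function.update g i (q.1 i), g i), ?_, ?_, ?_⟩
    · exact Continuous.continuousAt
        ((continuous_id.update i continuous_const).prodMk (continuous_apply i))
    · simp
    · intro g; simp
  · exact Function.Surjective.denseRange fun g => ⟨(g, g i), by simp⟩

theorem isOpenMap_tup₁ (i : ℕ) : IsOpenMap fun g : Om => g i := isOpenMap_eval i

theorem isOpenMap_tup₂ : IsOpenMap fun g : Om => (g 0, g 1) := by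
  refine IsOpenMap.of_sections fun g =>
    ⟨fun q => Function.update (Function.update g 0 q.1) 1 q.2, ?_, ?_, ?_⟩
  · exact Continuous.continuousAt (by fun_prop)
  · simp
  · intro q; simp

theorem isOpenMap_tup₄ {j k l : ℕ} (hj : 0 < j) (hk : j < k) (hl : k < l) :
    IsOpenMap fun g : Om => (g 0, g j, g k, g l) := by
  have h1 : j ≠ 0 := by omega
  have h2 : k ≠ 0 := by omega
  have h3 : l ≠ 0 := by omega
  refine IsOpenMap.of_sections fun g =>
    ⟨fun q => Function.update (Function.update (Function.update (Function.update g 0 q.1) j q.2.1)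
      k q.2.2.1) l q.2.2.2, ?_, ?_, ?_⟩
  · exact Continuous.continuousAt (by fun_prop)
  · simp
  · intro q
    simp [hk.ne, hl.ne, (hk.trans hl).ne, h1.symm, h2.symm, h3.symm]

theorem measurable_elim {α : Type*} [MeasurableSpace α] {V X W : α → C} (hV : Measurable V)
    (hX : Measurable X) (hW : Measurable W) :
    Measurable fun a => ∀ Y, LeT Y (V a) → LeT Y (W a) → LeT Y (X a) := by
  have e : ∀ v x w : C, (∀ Y, LeT Y v → LeT Y w → LeT Y x) ↔
      ∀ F : Fn, LeT (out F.1 v) v → LeT (out F.1 v) w → LeT (out F.1 v) x := fun v x w =>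
    ⟨fun h F => h _, fun h Y h1 h2 => by
      obtain ⟨F, rfl⟩ := h1.exists_out
      exact h F h1 h2⟩
  simp only [e]
  exact Measurable.forall fun F => (measurable_LeT (measurable_out _ hV) hV).imp
    ((measurable_LeT (measurable_out _ hV) hW).imp (measurable_LeT (measurable_out _ hV) hX))

theorem gen_elim (i : ℕ) {V X : Om → C} (hV : Measurable V) (hX : Measurable X) (iV : Indep i V)
    (iX : Indep i X) :
    ∀ᶠ g in residual Om, ∀ Y, LeT Y (V g) → LeT Y (jn (X g) (g i)) → LeT Y (X g) := by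
  refine gen_update i (measurable_elim hV hX (by fun_prop)) (Eventually.of_forall fun g => ?_)
  simpa only [iV g, iX g, Function.update_self] using generic_meet (X g) (V g)

/-- Join of five coordinates. -/
def jn5 (G : C → C) (g : Om) (j : ℕ) : C :=
  jn (jn4 G (g 0, g (j + 1), g (j + 2), g (j + 3))) (G (g (j + 4)))

theorem gen_meet5 : ∀ᶠ g in residual Om, Meet (jn5 id g 0) (jn5 id g 4) (g 0) := by
  have hV : Measurable fun g : Om => jn5 id g 0 := by unfold jn5 jn4; fun_prop
  have iV : ∀ i, 4 < i → Indep i fun g : Om => jn5 id g 0 := by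
    intro i hi g c
    simp only [jn5, jn4, id]
    rw [Function.update_of_ne (by omega), Function.update_of_ne (by omega),
      Function.update_of_ne (by omega), Function.update_of_ne (by omega),
      Function.update_of_ne (by omega)]
  filter_upwards [
    gen_elim 5 (X := fun g => g 0) hV (by fun_prop) (iV 5 (by omega)) (fun g c => by simp),
    gen_elim 6 (X := fun g => jn (g 0) (g 5)) hV (by fun_prop) (iV 6 (by omega))
      (fun g c => by simp),
    gen_elim 7 (X := fun g => jn (jn (g 0) (g 5)) (g 6)) hV (by fun_prop) (iV 7 (by omega))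
      (fun g c => by simp),
    gen_elim 8 (X := fun g => jn (jn (jn (g 0) (g 5)) (g 6)) (g 7)) hV (by fun_prop)
      (iV 8 (by omega)) (fun g c => by simp)] with g h5 h6 h7 h8
  refine ⟨(le_jn_left _ _).left _, (le_jn_left _ _).left _, fun Y h1 h2 => ?_⟩
  refine h5 Y h1 (h6 Y h1 (h7 Y h1 (h8 Y h1 (h2.trans (LeT.jn_mono ?_ (LeT.refl _))))))
  exact (((le_jn_left _ _).left _).left _).jn ((((le_jn_right _ _).left _).left _).jn
    (((le_jn_right _ _).left _).jn (le_jn_right _ _)))

theorem auto_le_self {ρ : C → C → Prop} (h : Auto ρ) {y₀ y₁ : C} (hy : ρ y₀ y₁) : LeT y₀ y₁ := by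
  obtain ⟨F, L, hF, hL, hT, hP, hN, hv⟩ := h.rep hy
  have hz : ∀ x : C, xr x (finv []) = x := fun x => by funext n; simp [xr, finv]
  have hc : ∀ i, ∀ᶠ z in L, z.1 (z.2 i) (F (z.2 i)) := fun i => by
    simpa only [Tm.ev, hz] using hv i (.fin []) fun _ _ => rfl
  have t₁ : ∀ i, Tendsto (fun g : Om => g i) (residual _) (residual _) := fun i =>
    tendsto_residual_of_isOpenMap (continuous_apply i) (isOpenMap_tup₁ i)
  have t₂ := tendsto_residual_of_isOpenMap (by fun_prop) isOpenMap_tup₂
  have p₁ : ∀ p : C → Prop, Measurable p → (∀ᶠ z in L, p (z.2 0)) → ∀ᶠ x in residual C, p x :=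
    fun p hp hz => push (continuous_apply 0) (isOpenMap_tup₁ 0)
      (Function.Surjective.denseRange fun x => ⟨fun _ => x, rfl⟩) (bm hp)
      (hP (fun g => p (g 0)) (hp.comp (measurable_pi_apply 0)) hz)
  have p₂ : ∀ p : C × C → Prop, Measurable p → (∀ᶠ z in L, p (z.2 0, z.2 1)) →
      ∀ᶠ x in residual (C × C), p x :=
    fun p hp hz => push (by fun_prop) isOpenMap_tup₂
      (Function.Surjective.denseRange fun x => ⟨fun i => if i = 0 then x.1 else x.2, by simp⟩)
      (bm hp) (hP (fun g => p (g 0, g 1)) (hp.comp (by fun_prop)) hz)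
  have p₄ : ∀ p : C × C × C × C → Prop, Measurable p →
      (∀ᶠ z in L, p (z.2 0, z.2 1, z.2 2, z.2 3)) → ∀ᶠ x in residual (C × C × C × C), p x :=
    fun p hp hz => push (by fun_prop)
      (isOpenMap_tup₄ (j := 1) (k := 2) (l := 3) (by omega) (by omega) (by omega))
      (Function.Surjective.denseRange fun x => ⟨fun i => if i = 0 then x.1 else if i = 1 then x.2.1
        else if i = 2 then x.2.2.1 else x.2.2.2, by simp⟩)
      (bm hp) (hP (fun g => p (g 0, g 1, g 2, g 3)) (hp.comp (by fun_prop)) hz)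
  have hcore := core hF
    (p₂ _ (by fun_prop) (by
      filter_upwards [hN, hc 0, hc 1, hv 0 (.var 1) fun g c => by simp [Tm.ev]] with z n a b s
      exact (n.1.le_iff s (n.1.jn a b)).1 (xr_le _ _)))
    (p₄ _ (measurable_LeT (hF.comp continuous_nu.measurable) (by unfold jn4; fun_prop)) (by
      filter_upwards [hN, hc 0, hc 1, hc 2, hc 3,
        hv 3 (.xr (.sh (.var 2)) (.an (.var 0) (.var 1))) fun g c => by simp [Tm.ev]]
        with z n a b c d s
      refine (n.1.le_iff s (n.1.jn a (n.1.jn b (n.1.jn c d)))).1 ?_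
      exact (((le_jn_right _ _).right _).right _).xr ((((le_jn_left _ _).right _).right _).sh.xr
        ((le_jn_left _ _).an ((le_jn_left _ _).right _)))))
    (by
      have : ∀ l, ∀ᶠ x in residual C, EqT (F (xr x (finv l))) (F x) := fun l =>
        p₁ _ (by fun_prop) (by
          filter_upwards [hN, hc 0, hv 0 (.fin l) fun g c => rfl] with z n a s
          have e : EqT (xr (z.2 0) (finv l)) (z.2 0) :=
            eqT_of_eventually_eq l.length fun k hk => by simp [xr, finv, hk]
          exact ⟨(n.1.le_iff s a).1 e.1, (n.1.le_iff a s).1 e.2⟩)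
      filter_upwards [eventually_countable_forall.2 this] with x hx y hy
      obtain ⟨l, rfl⟩ := hy.exists_finv
      exact hx l)
    (p₂ _ (Measurable.not (by fun_prop)) (by
      filter_upwards [hN, hc 0, hc 1, (t₂.comp hT).eventually generic_not_le] with z n a b s he
      exact s ((n.1.le_iff b a).2 he.2)))
  have h5 : ∀ j, ∀ᶠ g in residual Om, LeT (g 0) (jn5 F g j) := fun j => by
    refine gen_update (j + 4) (by unfold jn5 jn4; fun_prop) ?_
    filter_upwards [(tendsto_residual_of_isOpenMap (by fun_prop)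
      (isOpenMap_tup₄ (j := j + 1) (k := j + 2) (l := j + 3) (by omega) (by omega)
        (by omega))).eventually hcore] with g hg
    simpa [jn5] using hg
  have hx : ∀ᶠ x in residual C, LeT x (F x) := p₁ _ (by fun_prop) (by
    filter_upwards [hN, hc 0, hc 1, hc 2, hc 3, hc 4, hc 5, hc 6, hc 7, hc 8,
      hT.eventually (h5 0), hT.eventually (h5 4), hT.eventually gen_meet5]
      with z n a₀ a₁ a₂ a₃ a₄ a₅ a₆ a₇ a₈ b₁ b₂ m
    exact (n.1.meet (n.1.jn (n.1.jn a₀ (n.1.jn a₁ (n.1.jn a₂ a₃))) a₄)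
      (n.1.jn (n.1.jn a₀ (n.1.jn a₅ (n.1.jn a₆ a₇))) a₈) a₀ m).2.2 _ b₁ b₂)
  have hy' : ∀ i, ∀ᶠ z in L, LeT y₀ (jn y₁ (F (z.2 i))) := fun i => by
    filter_upwards [hN, hc i, hv i .par fun g c => rfl, ((t₁ i).comp hT).eventually hx,
      (((tendsto_xr y₀).comp (t₁ i)).comp hT).eventually hx] with z n a s b₁ b₂
    have h1 : LeT (F (xr (z.2 i) y₀)) (jn y₁ (F (z.2 i))) :=
      (n.1.le_iff s (n.1.jn n.2 a)).1 ((le_jn_right _ _).xr (le_jn_left _ _))
    have h2 := (LeT.right b₁ y₁).xr (LeT.trans b₂ h1)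
    simpa using h2
  have hm : ∀ᶠ g in residual Om, Meet (jn y₀ (g 1)) (jn y₀ (g 0)) y₀ := by
    refine gen_update 1 (by fun_prop) (Eventually.of_forall fun g => ?_)
    simpa using generic_meet' (le_jn_left y₀ (g 0))
  obtain ⟨z, n, a₀, a₁, b₀, b₁, m⟩ :=
    (hN.and ((hc 0).and ((hc 1).and ((hy' 0).and ((hy' 1).and (hT.eventually hm)))))).exists
  exact (n.1.meet (n.1.jn n.2 a₁) (n.1.jn n.2 a₀) n.2 m).2.2 _ b₁ b₀

theorem auto_of_orderIso (π : SetDegree ≃o SetDegree) : Auto fun x y => π (deg x) = deg y := by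
  have he : ∀ {x y}, EqT x y → deg x = deg y := fun h =>
    le_antisymm (deg_le_deg.2 h.1) (deg_le_deg.2 h.2)
  refine ⟨fun x => ?_, fun y => ?_, fun a b => ?_, fun a b c => ?_⟩
  · obtain ⟨y, hy⟩ := deg_surjective (π (deg x))
    exact ⟨y, hy.symm⟩
  · obtain ⟨x, hx⟩ := deg_surjective (π.symm (deg y))
    exact ⟨x, by rw [hx, π.apply_symm_apply]⟩
  · rw [← deg_le_deg, ← deg_le_deg, ← a, ← b, π.le_iff_le]
  · rw [← he b, ← he c, a]

end Vale.Agent.P327
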