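import Vale.Agent.P327.Comp
import Vale.Agent.P327.Baire

/-!
Continuity and measurability of the basic operations and relations.
-/

namespace Vale.Agent.P327

open Filter Set Topology

section Cont
variable {α : Type*} [TopologicalSpace α] {f g : α → C}

theorem continuous_bool₂ (op : Bool → Bool → Bool) {u v : α → Bool} (hu : Continuous u)
    (hv : Continuous v) : Continuous fun a => op (u a) (v a) :=
  (continuous_of_discreteTopology (f := fun p : Bool × Bool => op p.1 p.2)).comp (hu.prodMk hv)

@[fun_prop] theorem continuous_xr (hf : Continuous f) (hg : Continuous g) :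
    Continuous fun a => xr (f a) (g a) :=
  continuous_pi fun n => continuous_bool₂ xor ((continuous_apply n).comp hf)
    ((continuous_apply n).comp hg)

@[fun_prop] theorem continuous_an (hf : Continuous f) (hg : Continuous g) :
    Continuous fun a => an (f a) (g a) :=
  continuous_pi fun n => continuous_bool₂ and ((continuous_apply n).comp hf)
    ((continuous_apply n).comp hg)

@[fun_prop] theorem continuous_sh (hf : Continuous f) : Continuous fun a => sh (f a) :=
  continuous_pi fun n => by
    cases n with
    | zero => exact continuous_const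
    | succ n => exact (continuous_apply n).comp hf

@[fun_prop] theorem continuous_jn (hf : Continuous f) (hg : Continuous g) :
    Continuous fun a => jn (f a) (g a) :=
  continuous_pi fun n => by
    unfold jn
    cases n.bodd
    · exact (continuous_apply _).comp hf
    · exact (continuous_apply _).comp hg

@[fun_prop] theorem continuous_col (hf : Continuous f) (i : ℕ) :
    Continuous fun a => col (f a) i :=
  continuous_pi fun _ => (continuous_apply _).comp hf

@[fun_prop] theorem continuous_ow (m : ℕ) (σ : C) (hf : Continuous f) :
    Continuous fun a => ow m σ (f a) :=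
  continuous_pi fun n => by
    unfold ow
    split_ifs
    · exact continuous_const
    · exact (continuous_apply _).comp hf

end Cont

section Meas
variable {α : Type*} [MeasurableSpace α] {f g h : α → C}

theorem measurable_bool₂ (op : Bool → Bool → Bool) {u v : α → Bool} (hu : Measurable u)
    (hv : Measurable v) : Measurable fun a => op (u a) (v a) :=
  (measurable_of_countable (f := fun p : Bool × Bool => op p.1 p.2)).comp (hu.prodMk hv)

@[fun_prop] theorem measurable_xr (hf : Measurable f) (hg : Measurable g) :
    Measurable fun a => xr (f a) (g a) :=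
  measurable_pi_lambda _ fun n => measurable_bool₂ xor ((measurable_pi_apply n).comp hf)
    ((measurable_pi_apply n).comp hg)

@[fun_prop] theorem measurable_an (hf : Measurable f) (hg : Measurable g) :
    Measurable fun a => an (f a) (g a) :=
  measurable_pi_lambda _ fun n => measurable_bool₂ and ((measurable_pi_apply n).comp hf)
    ((measurable_pi_apply n).comp hg)

@[fun_prop] theorem measurable_sh (hf : Measurable f) : Measurable fun a => sh (f a) :=
  measurable_pi_lambda _ fun n => by
    cases n with
    | zero => exact measurable_const
    | succ n => exact (measurable_pi_apply n).comp hf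

@[fun_prop] theorem measurable_jn (hf : Measurable f) (hg : Measurable g) :
    Measurable fun a => jn (f a) (g a) :=
  measurable_pi_lambda _ fun n => by
    unfold jn
    cases n.bodd
    · exact (measurable_pi_apply _).comp hf
    · exact (measurable_pi_apply _).comp hg

@[fun_prop] theorem measurable_col (hf : Measurable f) (i : ℕ) :
    Measurable fun a => col (f a) i :=
  measurable_pi_lambda _ fun _ => (measurable_pi_apply _).comp hf

@[fun_prop] theorem measurable_ow (m : ℕ) (σ : C) (hf : Measurable f) :
    Measurable fun a => ow m σ (f a) :=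
  measurable_pi_lambda _ fun n => by
    unfold ow
    split_ifs
    · exact measurable_const
    · exact (measurable_pi_apply _).comp hf

@[fun_prop] theorem measurable_sjn {s : α → ℕ → C} (hs : Measurable s) :
    Measurable fun a => sjn (s a) :=
  measurable_pi_lambda _ fun _ => (measurable_pi_apply _).comp ((measurable_pi_apply _).comp hs)

theorem measurable_eq_bool {u : α → Bool} (hu : Measurable u) (b : Bool) :
    Measurable fun a => u a = b :=
  (measurable_of_countable (f := fun c : Bool => c = b)).comp hu

theorem measurable_decide {p : α → Prop} [DecidablePred p] (hp : Measurable p) :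
    Measurable fun a => decide (p a) := by
  refine measurable_to_bool ?_
  convert measurableSet_setOfPred.2 hp
  ext a
  simp

@[fun_prop] theorem measurable_eqC (hf : Measurable f) (hg : Measurable g) :
    Measurable fun a => f a = g a := by
  simp only [funext_iff]
  exact Measurable.forall fun n =>
    (measurable_of_countable (f := fun p : Bool × Bool => p.1 = p.2)).comp
      (((measurable_pi_apply n).comp hf).prodMk ((measurable_pi_apply n).comp hg))

@[fun_prop] theorem measurable_Pre (l : List Bool) (hf : Measurable f) :
    Measurable fun a => Pre l (f a) :=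
  Measurable.forall fun i => Measurable.forall fun b =>
    measurable_const.imp (measurable_eq_bool ((measurable_pi_apply i).comp hf) b)

@[fun_prop] theorem measurable_Red (F : List Bool → List Bool) (hf : Measurable f)
    (hg : Measurable g) : Measurable fun a => Red F (f a) (g a) :=
  (Measurable.forall fun l => (measurable_Pre l hf).imp (measurable_Pre _ hg)).and
    (Measurable.forall fun _ => Measurable.exists fun _ => Measurable.forall fun l =>
      (measurable_Pre l hf).imp measurable_const)

@[fun_prop] theorem measurable_LeT (hf : Measurable f) (hg : Measurable g) :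
    Measurable fun a => LeT (f a) (g a) := by
  simp only [leT_iff]
  exact Measurable.exists fun F => measurable_Red _ hg hf

@[fun_prop] theorem measurable_EqT (hf : Measurable f) (hg : Measurable g) :
    Measurable fun a => EqT (f a) (g a) :=
  (measurable_LeT hf hg).and (measurable_LeT hg hf)

@[fun_prop] theorem measurable_out (F : List Bool → List Bool) (hf : Measurable f) :
    Measurable fun a => out F (f a) := by
  refine measurable_pi_lambda _ fun n => ?_
  unfold out
  classical
  have e : ∀ x : C, (∃ k, (F (pre x k))[n]? = some true) ↔
      ∃ l, Pre l x ∧ (F l)[n]? = some true := fun x =>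
    ⟨fun ⟨k, hk⟩ => ⟨_, pre_Pre x k, hk⟩, fun ⟨l, hl, h⟩ => ⟨l.length, by rw [← hl.eq_pre, h]⟩⟩
  refine measurable_decide (p := fun a => ∃ k, (F (pre (f a) k))[n]? = some true) ?_
  simp only [e]
  exact Measurable.exists fun l => (measurable_Pre l hf).and measurable_const

theorem meet_iff {u v w : C} : Meet u v w ↔ LeT w u ∧ LeT w v ∧
    ∀ F : Fn, LeT (out F.1 u) u → LeT (out F.1 u) v → LeT (out F.1 u) w := by
  refine and_congr_right fun _ => and_congr_right fun _ => ⟨fun h F => h _, fun h y h1 h2 => ?_⟩
  obtain ⟨F, rfl⟩ := h1.exists_out
  exact h F h1 h2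

@[fun_prop] theorem measurable_Meet (hf : Measurable f) (hg : Measurable g) (hh : Measurable h) :
    Measurable fun a => Meet (f a) (g a) (h a) := by
  simp only [meet_iff]
  exact (measurable_LeT hh hf).and ((measurable_LeT hh hg).and (Measurable.forall fun F =>
    (measurable_LeT (measurable_out _ hf) hf).imp ((measurable_LeT (measurable_out _ hf) hg).imp
      (measurable_LeT (measurable_out _ hf) hh))))

end Meas

theorem bm {X : Type*} [TopologicalSpace X] [MeasurableSpace X] [BorelSpace X] {p : X → Prop}
    (hp : Measurable p) : BaireMeasurableSet {x | p x} :=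
  (measurableSet_setOfPred.2 hp).baireMeasurableSet

/-! Overwriting and translations. -/

theorem isOpenMap_xr (s : C) : IsOpenMap fun x => xr x s :=
  (Homeomorph.mk ⟨fun x => xr x s, fun x => xr x s, fun x => xr_xr_cancel x s,
    fun x => xr_xr_cancel x s⟩ (by fun_prop) (by fun_prop)).isOpenMap

theorem tendsto_xr (s : C) : Tendsto (fun x => xr x s) (residual C) (residual C) :=
  tendsto_residual_of_isOpenMap (by fun_prop) (isOpenMap_xr s)

section Ow
variable {ι β : Type*} [TopologicalSpace β] [DiscreteTopology β]

theorem isOpenMap_piecewise (p : ι → Prop) [DecidablePred p] (hp : {i | p i}.Finite) (σ : ι → β) :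
    IsOpenMap fun (x : ι → β) i => if p i then σ i else x i := by
  intro U hU
  rw [isOpen_iff_mem_nhds]
  rintro _ ⟨x, hx, rfl⟩
  have hc : Continuous fun (y : ι → β) i => if p i then x i else y i :=
    continuous_pi fun i => by
      split_ifs
      · exact continuous_const
      · exact continuous_apply i
  have h1 : (fun (y : ι → β) i => if p i then x i else y i) ⁻¹' U ∈
      𝓝 (fun i => if p i then σ i else x i) := by
    refine hc.continuousAt.preimage_mem_nhds (hU.mem_nhds ?_)
    convert hx using 2 with i
    split_ifs <;> rfl
  have h2 : Set.pi {i | p i} (fun i => {σ i}) ∈ 𝓝 (fun i => if p i then σ i else x i) := by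
    refine set_pi_mem_nhds hp fun i hi => ?_
    simp only [mem_ofPred_eq] at hi
    simp [hi]
  filter_upwards [h1, h2] with y hy1 hy2
  refine ⟨_, hy1, ?_⟩
  funext i
  by_cases hi : p i
  · simp only [hi, if_true]
    exact (hy2 i hi).symm
  · simp [hi]

omit [DiscreteTopology β] in
/-- A neighbourhood of `σ` contains a cylinder. -/
theorem exists_cyl {σ : ℕ → β} {V : Set (ℕ → β)} (hV : V ∈ 𝓝 σ) :
    ∀ᶠ m in atTop, ∀ x : ℕ → β, (∀ n < m, x n = σ n) → x ∈ V := by
  rw [nhds_pi, Filter.mem_pi] at hV
  obtain ⟨I, hI, t, ht, hsub⟩ := hV
  obtain ⟨M, hM⟩ := hI.bddAbove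
  filter_upwards [eventually_gt_atTop M] with m hm x hx
  refine hsub fun i hi => ?_
  rw [hx i (lt_of_le_of_lt (hM hi) hm)]
  exact mem_of_mem_nhds (ht i)

end Ow

theorem isOpenMap_ow (m : ℕ) (σ : C) : IsOpenMap (ow m σ) :=
  isOpenMap_piecewise (fun n => n < m) (finite_lt_nat m) σ

theorem tendsto_ow (m : ℕ) (σ : C) : Tendsto (ow m σ) (residual C) (residual C) :=
  tendsto_residual_of_isOpenMap (by fun_prop) (isOpenMap_ow m σ)

theorem eventually_ow_mem {σ : C} {V : Set C} (hV : V ∈ 𝓝 σ) :
    ∀ᶠ m in atTop, ∀ x, ow m σ x ∈ V := by
  filter_upwards [exists_cyl hV] with m hm x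
  exact hm _ fun n hn => by simp [ow, hn]

theorem isOpen_Pre (l : List Bool) : IsOpen {x : C | Pre l x} := by
  have e : {x : C | Pre l x} = ⋂ i ∈ Finset.range l.length, {x | l[i]? = some (x i)} := by
    ext x
    simp only [mem_ofPred_eq, Finset.mem_range, mem_iInter]
    refine ⟨fun h i hi => h.get hi, fun h i b hb => ?_⟩
    have hi : i < l.length := (List.getElem?_eq_some_iff.1 hb).1
    rw [h i hi] at hb
    simpa using hb
  rw [e]
  refine isOpen_biInter_finset fun i _ => ?_
  exact (isOpen_discrete {b : Bool | l[i]? = some b}).preimage
    (continuous_apply (A := fun _ : ℕ => Bool) i)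

theorem exists_Pre (l : List Bool) : ∃ x : C, Pre l x :=
  ⟨fun i => l[i]?.getD false, fun i b h => by simp [h]⟩

/-- Localization on Cantor space. -/
theorem locC {p : C → Prop} {U : Set C} (ho : IsOpen U) (hn : U.Nonempty)
    (h : ∀ᶠ x in residual C, x ∈ U → p x) :
    ∃ σ, ∀ᶠ m in atTop, ∀ᶠ x in residual C, p (ow m σ x) := by
  obtain ⟨σ, hσ⟩ := hn
  refine ⟨σ, ?_⟩
  filter_upwards [eventually_ow_mem (ho.mem_nhds hσ)] with m hm
  filter_upwards [(tendsto_ow m σ).eventually h] with x hx using hx (hm x)

end Vale.Agent.P327
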