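import Vale.Agent.P327.Avg
import Mathlib.Tactic.DeriveCountable

/-!
Term functions, and a single Borel function representing the averaged automorphism on all
virtual coordinates.
-/

namespace Vale.Agent.P327

open Filter Set Topology

/-- Terms. -/
inductive Tm : Type
  | var : ℕ → Tm
  | fin : List Bool → Tm
  | par : Tm
  | xr : Tm → Tm → Tm
  | an : Tm → Tm → Tm
  | sh : Tm → Tm
  | jn : Tm → Tm → Tm
  deriving Countable

/-- A finitely supported point. -/
def finv (l : List Bool) : C := fun n => l.getD n false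

/-- Value of a term. -/
def Tm.ev (y₀ : C) : Tm → Om → C
  | .var i, g => g i
  | .fin l, _ => finv l
  | .par, _ => y₀
  | .xr s t, g => P327.xr (s.ev y₀ g) (t.ev y₀ g)
  | .an s t, g => P327.an (s.ev y₀ g) (t.ev y₀ g)
  | .sh s, g => P327.sh (s.ev y₀ g)
  | .jn s t, g => P327.jn (s.ev y₀ g) (t.ev y₀ g)

/-- Substitution. -/
def Tm.subst (θ : ℕ → Tm) : Tm → Tm
  | .var i => θ i
  | .fin l => .fin l
  | .par => .par
  | .xr s t => .xr (s.subst θ) (t.subst θ)
  | .an s t => .an (s.subst θ) (t.subst θ)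
  | .sh s => .sh (s.subst θ)
  | .jn s t => .jn (s.subst θ) (t.subst θ)

theorem Tm.ev_subst (y₀ : C) (θ : ℕ → Tm) (t : Tm) (g : Om) :
    (t.subst θ).ev y₀ g = t.ev y₀ fun i => (θ i).ev y₀ g := by
  induction t <;> simp_all [Tm.subst, Tm.ev]

theorem Tm.continuous_ev (y₀ : C) (t : Tm) : Continuous (t.ev y₀) := by
  induction t with
  | var i => exact continuous_apply i
  | fin l => exact continuous_const
  | par => exact continuous_const
  | xr s t hs ht => exact continuous_xr hs ht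
  | an s t hs ht => exact continuous_an hs ht
  | sh s hs => exact continuous_sh hs
  | jn s t hs ht => exact continuous_jn hs ht

theorem Tm.eventually_ev_eq (y₀ : C) (t : Tm) : ∀ᶠ N in atTop, ∀ g g' : Om,
    (∀ i < N, g i = g' i) → t.ev y₀ g = t.ev y₀ g' := by
  induction t with
  | var i => filter_upwards [eventually_gt_atTop i] with N hN g g' h using h i hN
  | fin l => exact Eventually.of_forall fun _ _ _ _ => rfl
  | par => exact Eventually.of_forall fun _ _ _ _ => rfl
  | xr s t hs ht =>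
    filter_upwards [hs, ht] with N h1 h2 g g' h
    simp only [Tm.ev, h1 g g' h, h2 g g' h]
  | an s t hs ht =>
    filter_upwards [hs, ht] with N h1 h2 g g' h
    simp only [Tm.ev, h1 g g' h, h2 g g' h]
  | sh s hs =>
    filter_upwards [hs] with N h1 g g' h
    simp only [Tm.ev, h1 g g' h]
  | jn s t hs ht =>
    filter_upwards [hs, ht] with N h1 h2 g g' h
    simp only [Tm.ev, h1 g g' h, h2 g g' h]

/-- Term functions. -/
def TT (y₀ : C) : Type := Set.range (Tm.ev y₀)

instance (y₀ : C) : Countable (TT y₀) := (Set.countable_range _).to_subtype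
instance (y₀ : C) : Nonempty (TT y₀) := ⟨⟨_, .par, rfl⟩⟩
instance (y₀ : C) : TopologicalSpace (TT y₀) := ⊥
instance (y₀ : C) : DiscreteTopology (TT y₀) := ⟨rfl⟩
instance (y₀ : C) : MeasurableSpace (TT y₀) := borel _
instance (y₀ : C) : BorelSpace (TT y₀) := ⟨rfl⟩

/-- The function of a term function. -/
def TT.fn {y₀ : C} (t : TT y₀) : Om → C := t.1

/-- The term function of a term. -/
def Tm.toTT (y₀ : C) (t : Tm) : TT y₀ := ⟨t.ev y₀, t, rfl⟩

/-- An involution of `Om` given by terms. -/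
structure Invol (y₀ : C) (θ : Om → Om) : Prop where
  tm : ∀ i, ∃ t : Tm, ∀ g, θ g i = t.ev y₀ g
  inv : ∀ g, θ (θ g) = g

theorem Invol.continuous {y₀ : C} {θ : Om → Om} (h : Invol y₀ θ) : Continuous θ :=
  continuous_pi fun i => by
    obtain ⟨t, ht⟩ := h.tm i
    simp only [ht]
    exact t.continuous_ev y₀

theorem Invol.tendsto {y₀ : C} {θ : Om → Om} (h : Invol y₀ θ) :
    Tendsto θ (residual Om) (residual Om) :=
  tendsto_residual_of_isOpenMap h.continuous
    (Homeomorph.mk ⟨θ, θ, h.inv, h.inv⟩ h.continuous h.continuous).isOpenMap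

theorem Invol.exists_equiv {y₀ : C} {θ : Om → Om} (h : Invol y₀ θ) :
    ∃ e : TT y₀ ≃ TT y₀, ∀ t g, t.fn (θ g) = (e t).fn g := by
  choose s hs using h.tm
  let f : TT y₀ → TT y₀ := fun t => ⟨fun g => t.fn (θ g), by
    obtain ⟨_, u, rfl⟩ := t
    refine ⟨u.subst s, funext fun g => ?_⟩
    rw [Tm.ev_subst]
    exact congrArg _ (funext fun i => (hs i g).symm)⟩
  have hf : ∀ t, f (f t) = t := fun t => Subtype.ext (funext fun g => congrArg t.1 (h.inv g))
  exact ⟨⟨f, f, hf, hf⟩, fun _ _ => rfl⟩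

theorem isOpenMap_reindex {ι κ Z : Type*} [TopologicalSpace Z] {e : κ → ι}
    (he : Function.Injective e) : IsOpenMap fun (g : ι → Z) k => g (e k) := by
  refine IsOpenMap.of_sections fun g => ⟨fun h => Function.extend e h g, ?_, ?_, ?_⟩
  · refine Continuous.continuousAt (continuous_pi fun i => ?_)
    by_cases hi : ∃ k, e k = i
    · obtain ⟨k, rfl⟩ := hi
      simp only [he.extend_apply]
      exact continuous_apply k
    · simp only [Function.extend_apply' _ _ _ hi]
      exact continuous_const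
  · funext i
    by_cases hi : ∃ k, e k = i
    · obtain ⟨k, rfl⟩ := hi
      simp only [he.extend_apply]
    · simp only [Function.extend_apply' _ _ _ hi]
  · intro h
    funext k
    simp only [he.extend_apply]

/-- Cylinders in `Om`. -/
def cyl (N M : ℕ) (σ : Om) : Set Om := {g | ∀ i < N, ∀ n < M, g i n = σ i n}

theorem isOpen_cyl (N M : ℕ) (σ : Om) : IsOpen (cyl N M σ) := by
  have e : cyl N M σ = ⋂ i ∈ Finset.range N, ⋂ n ∈ Finset.range M, {g | g i n = σ i n} := by
    ext g; simp [cyl]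
  rw [e]
  refine isOpen_biInter_finset fun i _ => isOpen_biInter_finset fun n _ => ?_
  exact (isOpen_discrete {b : Bool | b = σ i n}).preimage (f := fun g : Om => g i n) (by fun_prop)

theorem eventually_cyl_subset {σ : Om} {V : Set Om} (hV : V ∈ 𝓝 σ) :
    ∀ᶠ M in atTop, cyl M M σ ⊆ V := by
  rw [nhds_pi, Filter.mem_pi] at hV
  obtain ⟨I, hI, t, ht, hsub⟩ := hV
  obtain ⟨M₀, hM₀⟩ := hI.bddAbove
  have h1 : ∀ᶠ M in atTop, ∀ i ∈ I, ∀ x : C, (∀ n < M, x n = σ i n) → x ∈ t i :=
    (eventually_all_finite hI).2 fun i _ => exists_cyl (ht i)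
  filter_upwards [h1, eventually_gt_atTop M₀] with M h2 h3 g hg
  exact hsub fun i hi => h2 i hi _ (hg i (lt_of_le_of_lt (hM₀ hi) h3))

theorem push_on {X Y : Type*} [TopologicalSpace X] [TopologicalSpace Y] [BaireSpace X] {f : X → Y}
    (hc : Continuous f) (ho : IsOpenMap f) {U : Set X} (hU : IsOpen U)
    (hd : ∀ y, ∃ x ∈ U, f x = y) {p : Y → Prop} (hp : BaireMeasurableSet {y | p y})
    (h : ∀ᶠ x in residual X, x ∈ U → p (f x)) : ∀ᶠ y in residual Y, p y := by
  by_contra hn
  obtain ⟨V, hVo, ⟨y, hy⟩, hV⟩ := loc (p := fun y => ¬ p y) hp.compl (by simpa using hn)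
  have h1 := (tendsto_residual_of_isOpenMap hc ho).eventually hV
  obtain ⟨x₀, hx₀, rfl⟩ := hd y
  obtain ⟨x, hx, h2, h3⟩ := exists_of_residual (h.and h1) (hU.inter (hVo.preimage hc))
    ⟨x₀, hx₀, hy⟩
  exact h3 hx.2 (h2 hx.1)

theorem xr_finv_pre (M : ℕ) (σ x : C) : xr x (finv (pre (xr x σ) M)) = ow M σ x := by
  funext n
  simp only [xr, finv, ow, List.getD_eq_getElem?_getD, getElem?_pre]
  split_ifs <;> simp

theorem Auto.rep {ρ : C → C → Prop} (h : Auto ρ) {y₀ y₁ : C} (hy : ρ y₀ y₁) :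
    ∃ (F : C → C) (L : Filter ((C → C → Prop) × Om)), Measurable F ∧ L.NeBot ∧
      Tendsto Prod.snd L (residual Om) ∧
      (∀ p : Om → Prop, Measurable p → (∀ᶠ z in L, p z.2) → ∀ᶠ g in residual Om, p g) ∧
      (∀ᶠ z in L, Nice z.1 ∧ z.1 y₀ y₁) ∧
      ∀ (i : ℕ) (φ : Tm), Indep i (φ.ev y₀) →
        ∀ᶠ z in L, z.1 (xr (z.2 i) (φ.ev y₀ z.2)) (F (xr (z.2 i) (φ.ev y₀ z.2))) := by
  have hev : ∀ t : TT y₀, Measurable t.fn := by
    rintro ⟨_, t, rfl⟩
    exact (t.continuous_ev y₀).measurable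
  obtain ⟨d, p, S, U, hd, hUo, ⟨σ, hσ⟩, hS, hU, hinv⟩ := h.avg (ev := TT.fn) hev hy
  have hp : ∀ᶠ N in atTop, ∀ t ∈ p, ∀ g g' : Om, (∀ i < N, g i = g' i) → t.fn g = t.fn g' := by
    refine (eventually_all_finite (List.finite_toSet p)).2 ?_
    rintro ⟨_, t, rfl⟩ -
    exact t.eventually_ev_eq y₀
  obtain ⟨N, hN₁, hN₂⟩ := (hp.and (eventually_cyl_subset (hUo.mem_nhds hσ))).exists
  let Q : Om → C → J → Prop := fun g x j => ∃ t, S g t j ∧ t.fn g = x
  have hQ : ∀ θ, Invol y₀ θ → (∀ g, ∀ i < N, θ g i = g i) → ∀ g x j, Q (θ g) x j → Q g x j := by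
    rintro θ hθ hfix g x j ⟨t, ht, rfl⟩
    obtain ⟨e, he⟩ := hθ.exists_equiv
    refine ⟨e t, hinv e θ he (fun u hu => Subtype.ext (funext fun g' => ?_)) g t j ht,
      (he t g).symm⟩
    exact (he u g').symm.trans (hN₁ u hu _ _ (hfix g'))
  obtain ⟨j, V, hVo, ⟨σ', hσ'⟩, hVU, hV⟩ := loc_cover (p := fun j g => Q g (g N) j)
    (fun j => bm (Measurable.exists fun t => (hS t j).and
      (measurable_eqC (hev t) (measurable_pi_apply N)))) (isOpen_cyl N N σ)
    ⟨σ, fun _ _ _ _ => rfl⟩ (by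
      filter_upwards [hU] with g hg hg'
      obtain ⟨j, hj⟩ := (hg (hN₂ hg')).1 ((Tm.var N).toTT y₀)
      exact ⟨j, _, hj, rfl⟩)
  obtain ⟨M, hM, hNM⟩ :=
    ((eventually_cyl_subset (hVo.mem_nhds hσ')).and (eventually_gt_atTop N)).exists
  have hsub : cyl N M σ' ⊆ U := fun g hg => hN₂ fun i hi n hn =>
    (hg i hi n (by omega)).trans (hVU hσ' i hi n hn)
  have h1 : ∀ᶠ g in residual Om, g ∈ cyl N M σ' → Q g (ow M (σ' N) (g N)) j := by
    let τ : List (List Bool) → Om → Om := fun l g i =>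
      if N ≤ i then xr (g i) (finv (l.getD i [])) else g i
    have hτ : ∀ l, Invol y₀ (τ l) := fun l => ⟨fun i => by
      by_cases hi : N ≤ i
      · exact ⟨.xr (.var i) (.fin (l.getD i [])), fun g => by simp [τ, hi, Tm.ev]⟩
      · exact ⟨.var i, fun g => by simp [τ, hi, Tm.ev]⟩, fun g => by
      funext i
      by_cases hi : N ≤ i <;> simp [τ, hi]⟩
    filter_upwards [eventually_countable_forall.2 fun l => (hτ l).tendsto.eventually hV]
      with g hg hg'
    let l : List (List Bool) := (List.range M).map fun i => pre (xr (g i) (σ' i)) M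
    have hl : ∀ i, N ≤ i → i < M → τ l g i = ow M (σ' i) (g i) := by
      intro i h1 h2
      simp only [τ, if_pos h1, l, List.getD_eq_getElem?_getD, List.getElem?_map,
        List.getElem?_range h2, Option.map_some, Option.getD_some, xr_finv_pre]
    have hfix : ∀ g, ∀ i < N, τ l g i = g i := fun g i hi => by simp [τ, Nat.not_le.2 hi]
    have := hg l (hM fun i hi n hn => by
      by_cases h1 : N ≤ i
      · rw [hl i h1 hi]; simp [ow, hn]
      · rw [hfix g i (by omega)]; exact hg' i (by omega) n hn)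
    rw [hl N le_rfl hNM] at this
    exact hQ _ (hτ l) hfix _ _ _ this
  let sft : Om → Om := fun g i => g (N + i)
  have hsc : Continuous sft := by fun_prop
  have hso : IsOpenMap sft := isOpenMap_reindex (add_right_injective N)
  refine ⟨fun x => d j (ow M (σ' N) x),
    map (fun g => (Rel TT.fn d (S g) g, sft g)) (residual Om ⊓ 𝓟 (cyl N M σ')),
    (hd j).comp (by fun_prop), ?_, ?_, ?_, ?_, ?_⟩
  · refine NeBot.map ⟨fun hbot => ?_⟩ _
    rw [inf_principal_eq_bot] at hbot
    obtain ⟨x, hx, hx'⟩ := exists_of_residual hbot (isOpen_cyl N M σ') ⟨σ', fun _ _ _ _ => rfl⟩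
    exact hx' hx
  · rw [tendsto_map'_iff]
    exact (tendsto_residual_of_isOpenMap hsc hso).mono_left inf_le_left
  · intro q hq h2
    rw [eventually_map, eventually_inf_principal] at h2
    refine push_on hsc hso (isOpen_cyl N M σ') (fun g => ?_) (bm hq) h2
    refine ⟨fun i => if i < N then σ' i else g (i - N), fun i hi n _ => by simp [hi], ?_⟩
    funext i
    simp [sft]
  · rw [eventually_map, eventually_inf_principal]
    filter_upwards [hU] with g hg hg'
    refine ⟨(hg (hsub hg')).nice ?_, (hg (hsub hg')).par (t := Tm.par.toTT y₀) rfl⟩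
    rintro ⟨_, s, rfl⟩ ⟨_, t, rfl⟩
    exact ⟨(Tm.jn s t).toTT y₀, rfl⟩
  · intro i φ hφ
    rw [eventually_map, eventually_inf_principal]
    let θ₁ : Om → Om := fun g => Function.update g (N + i) (xr (g (N + i)) (φ.ev y₀ (sft g)))
    have hs₁ : ∀ g c, sft (Function.update g (N + i) c) = Function.update (sft g) i c := by
      intro g c
      funext k
      by_cases hk : k = i <;> simp [sft, hk]
    have hθ₁ : Invol y₀ θ₁ := ⟨fun k => by
      by_cases hk : k = N + i
      · refine ⟨.xr (.var k) (φ.subst fun k => .var (N + k)), fun g => ?_⟩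
        simp [θ₁, hk, Tm.ev, Tm.ev_subst, sft]
      · exact ⟨.var k, fun g => by simp [θ₁, hk, Tm.ev]⟩, fun g => by
      simp only [θ₁, hs₁, hφ (sft g), Function.update_self, Function.update_idem, xr_xr_cancel,
        Function.update_eq_self]⟩
    have hfix₁ : ∀ g, ∀ k < N, θ₁ g k = g k := fun g k hk => by
      simp [θ₁, show k ≠ N + i by omega]
    let θ₂ : Om → Om := fun g k => g (Equiv.swap N (N + i) k)
    have hθ₂ : Invol y₀ θ₂ := ⟨fun k => ⟨.var _, fun g => rfl⟩, fun g => by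
      funext k; simp [θ₂]⟩
    have hfix₂ : ∀ g, ∀ k < N, θ₂ g k = g k := fun g k hk => by
      simp only [θ₂]
      rw [Equiv.swap_apply_of_ne_of_ne (by omega) (by omega)]
    filter_upwards [(hθ₂.tendsto.comp hθ₁.tendsto).eventually h1] with g hg hg'
    have h2 := hg fun k hk n hn => by
      exact (congrFun ((hfix₂ (θ₁ g) k hk).trans (hfix₁ g k hk)) n).trans (hg' k hk n hn)
    have e : (θ₂ ∘ θ₁) g N = xr (sft g i) (φ.ev y₀ (sft g)) := by
      simp [θ₂, θ₁, sft]
    rw [e] at h2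
    obtain ⟨t, ht, hx⟩ := hQ _ hθ₁ hfix₁ _ _ _ (hQ _ hθ₂ hfix₂ _ _ _ h2)
    exact ⟨t, j, ht, hx ▸ ow_eqT _ _ _, hx ▸ EqT.refl _⟩

end Vale.Agent.P327
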